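import Mathlib

/-! Distance to the nearest integer, `|cos (π t)|`, and geometric sums over finite sets of integers. -/

set_option autoImplicit false

namespace Crest.Agent.R104

open Real Finset

/-- distance to the nearest integer -/
noncomputable def nd (t : ℝ) : ℝ := |t - round t|

/-- `|cos (π t)|` -/
noncomputable def gc (t : ℝ) : ℝ := |Real.cos (π * t)|

lemma nd_nonneg (t : ℝ) : 0 ≤ nd t := abs_nonneg _

lemma nd_le_half (t : ℝ) : nd t ≤ 1 / 2 := abs_sub_round t

lemma nd_le (t : ℝ) (m : ℤ) : nd t ≤ |t - m| := round_le t m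

lemma nd_le_abs (t : ℝ) : nd t ≤ |t| := by simpa using nd_le t 0

lemma nd_add_le (a b : ℝ) : nd (a + b) ≤ nd a + nd b := by
  have h := nd_le (a + b) (round a + round b)
  have : a + b - ((round a + round b : ℤ) : ℝ) = (a - round a) + (b - round b) := by
    push_cast; ring
  rw [this] at h
  exact h.trans (abs_add_le _ _)

lemma nd_neg_le (a : ℝ) : nd (-a) ≤ nd a := by
  have h := nd_le (-a) (-round a)
  have : -a - ((-round a : ℤ) : ℝ) = -(a - round a) := by push_cast; ring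
  rw [this, abs_neg] at h
  exact h

lemma nd_sub_le (a b : ℝ) : nd (a - b) ≤ nd a + nd b := by
  rw [sub_eq_add_neg]
  exact (nd_add_le _ _).trans (by linarith [nd_neg_le b])

/-- if `a + b + c` is an integer then `nd a ≤ nd b + |c|`. -/
lemma nd_le_of_int {a b c : ℝ} {m : ℤ} (h : a + b + c = m) : nd a ≤ nd b + |c| := by
  have h1 := nd_le a (m - round b)
  have : a - ((m - round b : ℤ) : ℝ) = -(b - round b) + -c := by push_cast; linarith
  rw [this] at h1
  refine h1.trans ((abs_add_le _ _).trans ?_)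
  rw [abs_neg, abs_neg]; rfl

lemma nd_sq_le {a b p : ℝ} (h : nd a ≤ nd b + p) (hp : 0 ≤ p) : nd a ^ 2 ≤ nd b ^ 2 + p := by
  have h1 := nd_le_half a
  have h2 := nd_le_half b
  have h3 := nd_nonneg a
  have h4 := nd_nonneg b
  by_cases hab : nd a ≤ nd b
  · nlinarith
  · push Not at hab
    nlinarith

lemma gc_nonneg (t : ℝ) : 0 ≤ gc t := abs_nonneg _

lemma gc_le_one (t : ℝ) : gc t ≤ 1 := Real.abs_cos_le_one _

lemma gc_add_int (t : ℝ) (m : ℤ) : gc (t + m) = gc t := by
  unfold gc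
  have : π * (t + m) = π * t + m * π := by ring
  rw [this, Real.cos_add_int_mul_pi, abs_mul, abs_zpow, abs_neg, abs_one, one_zpow, one_mul]

lemma gc_neg (t : ℝ) : gc (-t) = gc t := by
  unfold gc; rw [mul_neg, Real.cos_neg]

lemma gc_eq (t : ℝ) : gc t = Real.cos (π * nd t) := by
  have h1 : gc t = gc (t - round t) := by
    have := gc_add_int (t - round t) (round t)
    simpa using this
  rw [h1]
  unfold gc nd
  have h2 : Real.cos (π * (t - round t)) = Real.cos (π * |t - round t|) := by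
    rw [← Real.cos_abs (π * (t - round t)), abs_mul, abs_of_pos Real.pi_pos]
  rw [h2, abs_of_nonneg]
  apply Real.cos_nonneg_of_mem_Icc
  have h3 := abs_sub_round t
  have h4 := abs_nonneg (t - round t)
  have := Real.pi_pos
  constructor <;> nlinarith

lemma one_sub_le_gc (t : ℝ) : 1 - 5 * nd t ^ 2 ≤ gc t := by
  rw [gc_eq]
  have h := Real.one_sub_sq_div_two_le_cos (x := π * nd t)
  have hpi : π ^ 2 ≤ 10 := by nlinarith [Real.pi_lt_d2, Real.pi_pos]
  have : (π * nd t) ^ 2 / 2 ≤ 5 * nd t ^ 2 := by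
    rw [mul_pow]; nlinarith [sq_nonneg (nd t)]
  linarith

lemma cos_le_gc {t ρ : ℝ} (h : nd t ≤ ρ) (hρ : ρ ≤ 1 / 2) : Real.cos (π * ρ) ≤ gc t := by
  rw [gc_eq]
  have := Real.pi_pos
  apply Real.cos_le_cos_of_nonneg_of_le_pi
  · exact mul_nonneg this.le (nd_nonneg t)
  · nlinarith
  · exact mul_le_mul_of_nonneg_left h this.le

lemma gc_add_le (a b : ℝ) : gc (a + b) ≤ gc a + 4 * nd b := by
  have h1 : gc (a + b) = gc (a + (b - round b)) := by
    have := gc_add_int (a + (b - round b)) (round b)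
    rw [← this]; congr 1; ring
  rw [h1]
  unfold gc nd
  have h2 := Real.abs_cos_sub_cos_le (π * (a + (b - round b))) (π * a)
  have h3 : π * (a + (b - round b)) - π * a = π * (b - round b) := by ring
  rw [h3, abs_mul, abs_of_pos Real.pi_pos] at h2
  have h4 := abs_sub_abs_le_abs_sub (Real.cos (π * (a + (b - round b)))) (Real.cos (π * a))
  have h5 : π * |b - round b| ≤ 4 * |b - round b| :=
    mul_le_mul_of_nonneg_right Real.pi_le_four (abs_nonneg _)
  linarith

lemma exp_le_gc {t c : ℝ} (hc : 0 < c) (h : c ≤ gc t) : Real.exp (-(5 / c) * nd t ^ 2) ≤ gc t := by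
  have hg : 0 < gc t := hc.trans_le h
  have h1 := one_sub_le_gc t
  have h2 : (gc t)⁻¹ ≤ Real.exp ((5 / c) * nd t ^ 2) := by
    have h3 : (5 / c) * nd t ^ 2 + 1 ≤ Real.exp ((5 / c) * nd t ^ 2) := Real.add_one_le_exp _
    refine le_trans ?_ h3
    rw [inv_le_iff_one_le_mul₀ hg]
    have h4 : 5 * nd t ^ 2 ≤ (5 / c) * nd t ^ 2 * gc t := by
      have : (5 / c) * nd t ^ 2 * gc t = 5 * nd t ^ 2 * (gc t / c) := by ring
      rw [this]
      have h5 : 1 ≤ gc t / c := by rw [le_div_iff₀ hc]; linarith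
      nlinarith [sq_nonneg (nd t)]
    nlinarith
  rw [neg_mul, Real.exp_neg]
  exact inv_le_of_inv_le₀ hg h2

/-- the constant `1 / (1 - β⁻¹)` -/
noncomputable def Cb (β : ℝ) : ℝ := (1 - β⁻¹)⁻¹

lemma one_le_Cb {β : ℝ} (hβ : 1 < β) : 1 ≤ Cb β := by
  unfold Cb
  have h1 : 0 < β⁻¹ := by positivity
  have h2 : β⁻¹ < 1 := inv_lt_one_of_one_lt₀ hβ
  rw [one_le_inv₀ (by linarith)]; linarith

lemma geom_ge {β : ℝ} (hβ : 1 < β) (A : Finset ℤ) (a : ℤ) (hA : ∀ k ∈ A, a ≤ k) :
    ∑ k ∈ A, β ^ (a - k) ≤ Cb β := by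
  have h1 : 0 < β⁻¹ := by positivity
  have h2 : β⁻¹ < 1 := inv_lt_one_of_one_lt₀ hβ
  have hs := hasSum_geometric_of_lt_one h1.le h2
  have hinj : Set.InjOn (fun k : ℤ => (k - a).toNat) A := by
    intro k hk l hl hkl
    have := hA k hk
    have := hA l hl
    simp only at hkl
    omega
  calc ∑ k ∈ A, β ^ (a - k) = ∑ k ∈ A, (β⁻¹) ^ ((k - a).toNat) := by
        refine Finset.sum_congr rfl fun k hk => ?_
        have := hA k hk
        rw [← zpow_natCast, Int.toNat_of_nonneg (by omega), inv_zpow', neg_sub]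
    _ = ∑ n ∈ A.image (fun k : ℤ => (k - a).toNat), (β⁻¹) ^ n := by
        rw [Finset.sum_image hinj]
    _ ≤ Cb β := sum_le_hasSum _ (fun _ _ => by positivity) hs

lemma geom_le {β : ℝ} (hβ : 1 < β) (A : Finset ℤ) (a : ℤ) (hA : ∀ k ∈ A, k ≤ a) :
    ∑ k ∈ A, β ^ (k - a) ≤ Cb β := by
  have h := geom_ge hβ (A.image (fun k => -k)) (-a) (by
    intro k hk
    obtain ⟨l, hl, rfl⟩ := Finset.mem_image.1 hk
    have := hA l hl
    omega)
  rw [Finset.sum_image (fun _ _ _ _ h => neg_injective h)] at h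
  refine le_of_eq_of_le (Finset.sum_congr rfl fun k _ => ?_) h
  congr 1; ring

lemma one_sub_sum_le_prod {ι : Type*} (A : Finset ι) (f a : ι → ℝ) (ha : ∀ i ∈ A, 0 ≤ a i)
    (hf0 : ∀ i ∈ A, 0 ≤ f i) (hf : ∀ i ∈ A, 1 - a i ≤ f i) :
    1 - ∑ i ∈ A, a i ≤ ∏ i ∈ A, f i := by
  classical
  induction A using Finset.induction_on with
  | empty => simp
  | insert i A hi ih =>
    rw [Finset.sum_insert hi, Finset.prod_insert hi]
    have ih' := ih (fun j hj => ha j (Finset.mem_insert_of_mem hj))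
      (fun j hj => hf0 j (Finset.mem_insert_of_mem hj))
      (fun j hj => hf j (Finset.mem_insert_of_mem hj))
    have h1 := ha i (Finset.mem_insert_self _ _)
    have h2 := hf0 i (Finset.mem_insert_self _ _)
    have h3 := hf i (Finset.mem_insert_self _ _)
    have h4 : 0 ≤ ∑ j ∈ A, a j :=
      Finset.sum_nonneg fun j hj => ha j (Finset.mem_insert_of_mem hj)
    have h5 : 0 ≤ ∏ j ∈ A, f j :=
      Finset.prod_nonneg fun j hj => hf0 j (Finset.mem_insert_of_mem hj)
    by_cases h6 : 0 ≤ 1 - ∑ j ∈ A, a j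
    · by_cases h7 : 0 ≤ 1 - a i
      · calc 1 - (a i + ∑ j ∈ A, a j) ≤ (1 - a i) * (1 - ∑ j ∈ A, a j) := by nlinarith
          _ ≤ f i * ∏ j ∈ A, f j := mul_le_mul h3 ih' h6 h2
      · nlinarith [mul_nonneg h2 h5]
    · nlinarith [mul_nonneg h2 h5]

end Crest.Agent.R104
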