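import Crest.Prelude.Def_BernoulliConv
import Crest.Agent.R104.Basic

/-! The Fourier transform of a Bernoulli convolution as a limit of products of cosines. -/

set_option autoImplicit false

namespace Crest.Agent.R104

open Real Finset MeasureTheory Filter Topology Crest.AnalysisR

instance fairCoin_prob : IsProbabilityMeasure fairCoin := by
  constructor
  simp [fairCoin, ENNReal.inv_two_add_inv_two]

lemma integral_fairCoin (f : Bool → ℂ) : ∫ b, f b ∂fairCoin = (f true + f false) / 2 := by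
  unfold fairCoin
  rw [integral_add_measure, integral_smul_measure, integral_smul_measure, integral_dirac,
    integral_dirac]
  · simp only [ENNReal.toReal_inv, ENNReal.toReal_ofNat, Complex.real_smul]
    push_cast; ring
  · exact Integrable.smul_measure (integrable_dirac (by simp)) (by simp)
  · exact Integrable.smul_measure (integrable_dirac (by simp)) (by simp)

lemma summable_term {c : ℝ} (hc0 : 0 ≤ c) (hc : c < 1) (ε : ℕ → Bool) :
    Summable fun n => (if ε n then c ^ n else -(c ^ n)) := by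
  refine Summable.of_norm_bounded (summable_geometric_of_lt_one hc0 hc) fun n => ?_
  split_ifs <;> simp [abs_of_nonneg hc0]

lemma tendsto_partial {c : ℝ} (hc0 : 0 ≤ c) (hc : c < 1) (ε : ℕ → Bool) :
    Tendsto (fun m => ∑ n ∈ range m, (if ε n then c ^ n else -(c ^ n))) atTop
      (𝓝 (signedPowerSum c ε)) :=
  (summable_term hc0 hc ε).hasSum.tendsto_sum_nat

lemma measurable_partial (c : ℝ) (m : ℕ) :
    Measurable fun ε : ℕ → Bool => ∑ n ∈ range m, (if ε n then c ^ n else -(c ^ n)) := by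
  refine Finset.measurable_sum _ fun n _ => ?_
  exact (measurable_of_finite (fun b : Bool => if b then c ^ n else -(c ^ n))).comp
    (measurable_pi_apply n)

lemma measurable_signedPowerSum {c : ℝ} (hc0 : 0 ≤ c) (hc : c < 1) :
    Measurable (signedPowerSum c) :=
  measurable_of_tendsto_metrizable (fun m => measurable_partial c m)
    (tendsto_pi_nhds.2 fun ε => tendsto_partial hc0 hc ε)

lemma abs_signedPowerSum_le {c : ℝ} (hc0 : 0 ≤ c) (hc : c < 1) (ε : ℕ → Bool) :
    |signedPowerSum c ε| ≤ (1 - c)⁻¹ := by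
  have h := tsum_of_norm_bounded (hasSum_geometric_of_lt_one hc0 hc)
    (f := fun n => (if ε n then c ^ n else -(c ^ n))) (fun n => by
      split_ifs <;> simp [abs_of_nonneg hc0])
  exact h

lemma bern_prob {c : ℝ} (hc0 : 0 ≤ c) (hc : c < 1) :
    IsProbabilityMeasure (bernoulliConvolution c) :=
  Measure.isProbabilityMeasure_map (measurable_signedPowerSum hc0 hc).aemeasurable

lemma bern_supp {c : ℝ} (hc0 : 0 ≤ c) (hc : c < 1) :
    bernoulliConvolution c (Set.Icc (-(1 - c)⁻¹) (1 - c)⁻¹)ᶜ = 0 := by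
  unfold bernoulliConvolution
  rw [Measure.map_apply (measurable_signedPowerSum hc0 hc) measurableSet_Icc.compl]
  have : signedPowerSum c ⁻¹' (Set.Icc (-(1 - c)⁻¹) (1 - c)⁻¹)ᶜ = ∅ := by
    ext ε
    simp only [Set.mem_preimage, Set.mem_compl_iff, Set.mem_Icc, Set.mem_empty_iff_false,
      iff_false, not_not]
    exact abs_le.1 (abs_signedPowerSum_le hc0 hc ε)
  rw [this, measure_empty]

lemma integral_partial (c t : ℝ) (m : ℕ) :
    ∫ ε : ℕ → Bool, Complex.exp (t * ((∑ n ∈ range m, (if ε n then c ^ n else -(c ^ n)) : ℝ) : ℂ)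
      * Complex.I) ∂(Measure.infinitePi (fun _ : ℕ => fairCoin))
      = ∏ n ∈ range m, ((Real.cos (t * c ^ n) : ℝ) : ℂ) := by
  let f : ℕ → Bool → ℂ := fun n b =>
    Complex.exp (t * ((if b then c ^ n else -(c ^ n) : ℝ) : ℂ) * Complex.I)
  have h1 : ∀ ε : ℕ → Bool,
      Complex.exp (t * ((∑ n ∈ range m, (if ε n then c ^ n else -(c ^ n)) : ℝ) : ℂ) * Complex.I)
      = (fun y : (Π _ : (range m : Finset ℕ), Bool) => ∏ i : (range m : Finset ℕ), f i (y i))
        ((range m).restrict ε) := by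
    intro ε
    simp only [Finset.restrict, f]
    rw [Finset.prod_coe_sort (range m)
      (fun i => Complex.exp (t * ((if ε i then c ^ i else -(c ^ i) : ℝ) : ℂ) * Complex.I)),
      ← Complex.exp_sum, Complex.ofReal_sum, Finset.mul_sum, Finset.sum_mul]
  simp_rw [h1]
  rw [integral_restrict_infinitePi (fun _ : ℕ => fairCoin)
    (f := fun y : (Π _ : (range m : Finset ℕ), Bool) => ∏ i : (range m : Finset ℕ), f i (y i))
    (measurable_of_finite _).aestronglyMeasurable,
    integral_fintype_prod_eq_prod (fun (i : (range m : Finset ℕ)) (b : Bool) => f i b),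
    Finset.prod_coe_sort (range m) (fun i => ∫ b, f i b ∂fairCoin)]
  refine Finset.prod_congr rfl fun n _ => ?_
  rw [integral_fairCoin, Complex.ofReal_cos, Complex.cos]
  simp only [f, if_true, Bool.false_eq_true, if_false]
  push_cast
  congr 3; ring

lemma tendsto_charFun {c : ℝ} (hc0 : 0 ≤ c) (hc : c < 1) (t : ℝ) :
    Tendsto (fun m => ∏ n ∈ range m, ((Real.cos (t * c ^ n) : ℝ) : ℂ)) atTop
      (𝓝 (charFun (bernoulliConvolution c) t)) := by
  simp_rw [← integral_partial]
  rw [charFun_apply_real]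
  unfold bernoulliConvolution
  rw [integral_map (measurable_signedPowerSum hc0 hc).aemeasurable (by fun_prop)]
  refine tendsto_integral_of_dominated_convergence (fun _ => (1 : ℝ)) (fun m => ?_)
    (integrable_const _) (fun m => ae_of_all _ fun ε => ?_) (ae_of_all _ fun ε => ?_)
  · have := measurable_partial c m
    exact (by fun_prop : Measurable _).aestronglyMeasurable
  · rw [← Complex.ofReal_mul, Complex.norm_exp_ofReal_mul_I]
  · have h := tendsto_partial hc0 hc ε
    have hcont : Continuous fun s : ℝ => Complex.exp (t * (s : ℂ) * Complex.I) := by fun_prop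
    exact (hcont.tendsto _).comp h

lemma tendsto_norm_charFun {c : ℝ} (hc0 : 0 ≤ c) (hc : c < 1) (X : ℝ) :
    Tendsto (fun m => ∏ n ∈ range m, gc (X * c ^ n)) atTop
      (𝓝 ‖charFun (bernoulliConvolution c) (π * X)‖) := by
  have h := (tendsto_charFun hc0 hc (π * X)).norm
  refine h.congr fun m => ?_
  rw [norm_prod]
  refine Finset.prod_congr rfl fun n _ => ?_
  rw [Complex.norm_real, Real.norm_eq_abs, gc, mul_assoc]

lemma prod_range_eq {β : ℝ} (hβ : 1 < β) (X : ℝ) (M : ℤ) (m : ℕ) :
    ∏ n ∈ range m, gc (X * β ^ M * (β⁻¹) ^ n) = ∏ k ∈ Ioc (M - m) M, gc (X * β ^ k) := by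
  have hβ0 : β ≠ 0 := by positivity
  refine Finset.prod_bij (fun n _ => M - n) ?_ ?_ ?_ ?_
  · intro n hn
    rw [Finset.mem_range] at hn
    rw [Finset.mem_Ioc]; omega
  · intro a _ b _ h
    omega
  · intro k hk
    rw [Finset.mem_Ioc] at hk
    exact ⟨(M - k).toNat, by rw [Finset.mem_range]; omega, by omega⟩
  · intro n _
    rw [zpow_sub₀ hβ0, inv_pow, zpow_natCast, mul_assoc, div_eq_mul_inv]

/-- upper bound for the Fourier transform by any finite subproduct -/
lemma charFun_le_prod {β : ℝ} (hβ : 1 < β) (X : ℝ) (M : ℤ) (A : Finset ℤ) (hA : ∀ k ∈ A, k ≤ M) :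
    ‖charFun (bernoulliConvolution β⁻¹) (π * (X * β ^ M))‖ ≤ ∏ k ∈ A, gc (X * β ^ k) := by
  have h1 : 0 < β⁻¹ := by positivity
  have h2 : β⁻¹ < 1 := inv_lt_one_of_one_lt₀ hβ
  refine le_of_tendsto (tendsto_norm_charFun h1.le h2 (X * β ^ M)) ?_
  obtain ⟨a, ha⟩ := A.bddBelow
  filter_upwards [eventually_ge_atTop ((M - a).toNat + 1)] with m hm
  rw [prod_range_eq hβ]
  refine Finset.prod_le_prod_of_subset_of_le_one ?_ (fun k _ => gc_nonneg _)
    (fun k _ _ => gc_le_one _)
  intro k hk
  have h3 : a ≤ k := ha hk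
  have h4 := hA k hk
  rw [Finset.mem_Ioc]; omega

/-- lower bound for the Fourier transform -/
lemma le_charFun {β : ℝ} (hβ : 1 < β) (X : ℝ) (M a₀ : ℤ) (b : ℝ)
    (h : ∀ a : ℤ, a ≤ a₀ → b ≤ ∏ k ∈ Ioc a M, gc (X * β ^ k)) :
    b ≤ ‖charFun (bernoulliConvolution β⁻¹) (π * (X * β ^ M))‖ := by
  have h1 : 0 < β⁻¹ := by positivity
  have h2 : β⁻¹ < 1 := inv_lt_one_of_one_lt₀ hβ
  refine ge_of_tendsto (tendsto_norm_charFun h1.le h2 (X * β ^ M)) ?_
  filter_upwards [eventually_ge_atTop ((M - a₀).toNat)] with m hm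
  rw [prod_range_eq hβ]
  exact h _ (by omega)

end Crest.Agent.R104
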