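import Mathlib

/-! A second-moment criterion for singularity with respect to Lebesgue measure. -/

set_option autoImplicit false

namespace Crest.Agent.R104

open Real Finset MeasureTheory Filter Topology
open scoped ComplexConjugate

/-- trigonometric polynomial -/
noncomputable def trig {J : ℕ} (σ : Fin J → ℂ) (ξ : Fin J → ℝ) (y : ℝ) : ℂ :=
  ∑ j, σ j * Complex.exp (ξ j * y * Complex.I)

lemma continuous_trig {J : ℕ} (σ : Fin J → ℂ) (ξ : Fin J → ℝ) : Continuous (trig σ ξ) := by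
  unfold trig; fun_prop

lemma integrable_exp (μ : Measure ℝ) [IsFiniteMeasure μ] (t : ℝ) :
    Integrable (fun y : ℝ => Complex.exp (t * y * Complex.I)) μ := by
  refine Integrable.of_bound (by fun_prop) 1 (ae_of_all _ fun y => ?_)
  rw [← Complex.ofReal_mul, Complex.norm_exp_ofReal_mul_I]

lemma norm_trig_le {J : ℕ} (σ : Fin J → ℂ) (ξ : Fin J → ℝ) (y : ℝ) :
    ‖trig σ ξ y‖ ≤ ∑ j, ‖σ j‖ := by
  refine (norm_sum_le _ _).trans (Finset.sum_le_sum fun j _ => ?_)
  rw [norm_mul, ← Complex.ofReal_mul, Complex.norm_exp_ofReal_mul_I, mul_one]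

lemma integrable_trig (μ : Measure ℝ) [IsFiniteMeasure μ] {J : ℕ} (σ : Fin J → ℂ)
    (ξ : Fin J → ℝ) : Integrable (trig σ ξ) μ :=
  Integrable.of_bound (continuous_trig σ ξ).aestronglyMeasurable _
    (ae_of_all _ fun y => norm_trig_le σ ξ y)

lemma integrable_trig_sq (μ : Measure ℝ) [IsFiniteMeasure μ] {J : ℕ} (σ : Fin J → ℂ)
    (ξ : Fin J → ℝ) : Integrable (fun y => ‖trig σ ξ y‖ ^ 2) μ := by
  refine Integrable.of_bound ((continuous_trig σ ξ).norm.pow 2).aestronglyMeasurable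
    ((∑ j, ‖σ j‖) ^ 2) (ae_of_all _ fun y => ?_)
  rw [Real.norm_eq_abs, abs_of_nonneg (by positivity)]
  exact pow_le_pow_left₀ (norm_nonneg _) (norm_trig_le σ ξ y) 2

lemma integral_trig (μ : Measure ℝ) [IsFiniteMeasure μ] {J : ℕ} (σ : Fin J → ℂ)
    (ξ : Fin J → ℝ) : ∫ y, trig σ ξ y ∂μ = ∑ j, σ j * charFun μ (ξ j) := by
  unfold trig
  rw [integral_finsetSum _ fun j _ => (integrable_exp μ (ξ j)).const_mul _]
  refine Finset.sum_congr rfl fun j _ => ?_
  rw [integral_const_mul, charFun_apply_real]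

lemma trig_sq {J : ℕ} (σ : Fin J → ℂ) (ξ : Fin J → ℝ) (y : ℝ) :
    ((‖trig σ ξ y‖ ^ 2 : ℝ) : ℂ) =
      ∑ j, ∑ l, σ j * conj (σ l) * Complex.exp ((ξ j - ξ l : ℝ) * y * Complex.I) := by
  rw [← Complex.normSq_eq_norm_sq, ← Complex.mul_conj]
  unfold trig
  rw [map_sum, Finset.sum_mul_sum]
  refine Finset.sum_congr rfl fun j _ => Finset.sum_congr rfl fun l _ => ?_
  rw [map_mul, ← Complex.exp_conj]
  simp only [map_mul, Complex.conj_ofReal, Complex.conj_I]
  rw [mul_mul_mul_comm, ← Complex.exp_add]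
  congr 2
  push_cast; ring

lemma integral_trig_sq_le (μ : Measure ℝ) [IsFiniteMeasure μ] {J : ℕ} (σ : Fin J → ℂ)
    (hσ : ∀ j, ‖σ j‖ ≤ 1) (ξ : Fin J → ℝ) (B : ℝ) (hB0 : 0 ≤ B)
    (hB : ∀ j l, j ≠ l → ‖charFun μ (ξ j - ξ l)‖ ≤ B) :
    ∫ y, ‖trig σ ξ y‖ ^ 2 ∂μ ≤ J * μ.real Set.univ + J ^ 2 * B := by
  have h1 : ((∫ y, ‖trig σ ξ y‖ ^ 2 ∂μ : ℝ) : ℂ) =
      ∑ j, ∑ l, σ j * conj (σ l) * charFun μ (ξ j - ξ l) := by
    rw [← integral_complex_ofReal]
    simp_rw [trig_sq]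
    rw [integral_finsetSum _ fun j _ => integrable_finsetSum _ fun l _ =>
      (integrable_exp μ (ξ j - ξ l)).const_mul _]
    refine Finset.sum_congr rfl fun j _ => ?_
    rw [integral_finsetSum _ fun l _ => (integrable_exp μ (ξ j - ξ l)).const_mul _]
    refine Finset.sum_congr rfl fun l _ => ?_
    rw [integral_const_mul, charFun_apply_real]
  have h2 : ∫ y, ‖trig σ ξ y‖ ^ 2 ∂μ ≤ ‖((∫ y, ‖trig σ ξ y‖ ^ 2 ∂μ : ℝ) : ℂ)‖ := by
    rw [Complex.norm_real]; exact le_abs_self _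
  refine h2.trans ?_
  rw [h1]
  have h3 : ∀ j l, ‖σ j * conj (σ l) * charFun μ (ξ j - ξ l)‖ ≤
      (if j = l then μ.real Set.univ else 0) + B := by
    intro j l
    rw [norm_mul, norm_mul, Complex.norm_conj]
    have h4 : ‖σ j‖ * ‖σ l‖ ≤ 1 := mul_le_one₀ (hσ j) (norm_nonneg _) (hσ l)
    refine (mul_le_of_le_one_left (norm_nonneg _) h4).trans ?_
    split_ifs with h
    · exact (norm_charFun_le _).trans (by linarith)
    · simpa using hB j l h
  calc ‖∑ j, ∑ l, σ j * conj (σ l) * charFun μ (ξ j - ξ l)‖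
      ≤ ∑ j : Fin J, ∑ l : Fin J, ((if j = l then μ.real Set.univ else 0) + B) :=
        (norm_sum_le _ _).trans (Finset.sum_le_sum fun j _ =>
          (norm_sum_le _ _).trans (Finset.sum_le_sum fun l _ => h3 j l))
    _ = J * μ.real Set.univ + J ^ 2 * B := by
        simp [Finset.sum_add_distrib]; ring

lemma norm_charFun_Icc_le (R : ℝ) (hR : 0 ≤ R) (t : ℝ) (ht : t ≠ 0) :
    ‖charFun (volume.restrict (Set.Icc (-R) R)) t‖ ≤ 2 / |t| := by
  rw [charFun_apply_real, integral_Icc_eq_integral_Ioc,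
    ← intervalIntegral.integral_of_le (by linarith)]
  have hc : (t : ℂ) * Complex.I ≠ 0 := mul_ne_zero (by exact_mod_cast ht) Complex.I_ne_zero
  have h1 : ∀ x : ℝ, Complex.exp (t * x * Complex.I) = Complex.exp ((t * Complex.I) * x) := by
    intro x; congr 1; ring
  simp_rw [h1]
  rw [integral_exp_mul_complex hc, norm_div, norm_mul, Complex.norm_I, mul_one, Complex.norm_real,
    Real.norm_eq_abs]
  gcongr
  refine (norm_sub_le _ _).trans ?_
  rw [← h1, ← h1, ← Complex.ofReal_mul, ← Complex.ofReal_mul, Complex.norm_exp_ofReal_mul_I,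
    Complex.norm_exp_ofReal_mul_I]
  norm_num

lemma exists_set_of_freq (ν : Measure ℝ) [IsProbabilityMeasure ν] (R : ℝ) (hR : 0 ≤ R)
    (hsupp : ν (Set.Icc (-R) R)ᶜ = 0) (τ : ℝ) (hτ : 0 < τ) (hτ1 : τ ≤ 1 / 4)
    (J : ℕ) (ξ : Fin J → ℝ) (W : ℝ) (hW : 0 < W) (hJW : 1 ≤ τ * J * W ^ 2)
    (h1 : ∀ j, (1 - τ) * W ≤ ‖charFun ν (ξ j)‖)
    (h2 : ∀ j l, j ≠ l → ‖charFun ν (ξ j - ξ l)‖ ≤ (1 + τ) * W ^ 2)
    (h3 : ∀ j l, j ≠ l → (J : ℝ) ≤ |ξ j - ξ l|) :
    ∃ E : Set ℝ, volume.real E ≤ 8 * (R + 1) * τ ∧ volume E ≠ ⊤ ∧ ν.real Eᶜ ≤ 64 * τ := by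
  have hJ : (0 : ℝ) < J := by
    by_contra h
    push Not at h
    have : (J : ℝ) = 0 := le_antisymm h (Nat.cast_nonneg _)
    rw [this] at hJW; norm_num at hJW
  have hpos : ∀ j, 0 < ‖charFun ν (ξ j)‖ := fun j =>
    lt_of_lt_of_le (mul_pos (by linarith) hW) (h1 j)
  set σ : Fin J → ℂ := fun j => conj (charFun ν (ξ j)) / (‖charFun ν (ξ j)‖ : ℂ) with hσdef
  have hσ : ∀ j, ‖σ j‖ ≤ 1 := by
    intro j
    simp only [hσdef, norm_div, Complex.norm_conj, Complex.norm_real, norm_norm]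
    exact div_self_le_one _
  set m : ℝ := ∑ j, ‖charFun ν (ξ j)‖ with hm
  have hint : ∫ y, trig σ ξ y ∂ν = m := by
    rw [integral_trig, hm, Complex.ofReal_sum]
    refine Finset.sum_congr rfl fun j _ => ?_
    have : (‖charFun ν (ξ j)‖ : ℂ) ≠ 0 := by exact_mod_cast (hpos j).ne'
    simp only [hσdef]
    rw [div_mul_eq_mul_div, mul_comm, Complex.mul_conj, Complex.normSq_eq_norm_sq]
    push_cast
    field_simp
  have hmge : J * ((1 - τ) * W) ≤ m := by
    calc (J : ℝ) * ((1 - τ) * W) = ∑ _j : Fin J, (1 - τ) * W := by simp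
      _ ≤ m := Finset.sum_le_sum fun j _ => h1 j
  have hν2 := integral_trig_sq_le ν σ hσ ξ ((1 + τ) * W ^ 2) (by positivity) h2
  rw [probReal_univ] at hν2
  set T : ℝ := (J * W) ^ 2 with hT
  have hT0 : 0 < T := by positivity
  have hJT : (J : ℝ) ≤ τ * T := by
    have : τ * T = J * (τ * J * W ^ 2) := by rw [hT]; ring
    rw [this]; nlinarith
  -- Lebesgue side
  set μ : Measure ℝ := volume.restrict (Set.Icc (-R) R) with hμ
  have : IsFiniteMeasure μ := by
    rw [hμ]; infer_instance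
  have hμu : μ.real Set.univ = 2 * R := by
    rw [hμ, measureReal_restrict_apply MeasurableSet.univ, Set.univ_inter, Real.volume_real_Icc]
    rw [max_eq_left (by linarith)]; ring
  have hμ2 := integral_trig_sq_le μ σ hσ ξ (2 / J) (by positivity) (by
    intro j l hjl
    have h4 := h3 j l hjl
    have h5 : ξ j - ξ l ≠ 0 := by
      intro h; rw [h, abs_zero] at h4; linarith
    refine (norm_charFun_Icc_le R hR _ h5).trans ?_
    gcongr)
  rw [hμu] at hμ2
  have hmeas : MeasurableSet {y | T / 4 ≤ ‖trig σ ξ y‖ ^ 2} :=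
    measurableSet_le measurable_const ((continuous_trig σ ξ).norm.pow 2).measurable
  refine ⟨{y | T / 4 ≤ ‖trig σ ξ y‖ ^ 2} ∩ Set.Icc (-R) R, ?_, ?_, ?_⟩
  · have h4 := mul_meas_ge_le_integral_of_nonneg (μ := μ)
      (ae_of_all _ fun y => by positivity) (integrable_trig_sq μ σ ξ) (T / 4)
    rw [hμ, measureReal_restrict_apply hmeas] at h4
    have h5 : (J : ℝ) * (2 * R) + J ^ 2 * (2 / J) = 2 * (R + 1) * J := by field_simp
    have h6 : T / 4 * volume.real ({y | T / 4 ≤ ‖trig σ ξ y‖ ^ 2} ∩ Set.Icc (-R) R)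
        ≤ T / 4 * (8 * (R + 1) * τ) := by
      calc _ ≤ 2 * (R + 1) * J := by rw [← h5]; exact h4.trans hμ2
        _ ≤ 2 * (R + 1) * (τ * T) := by gcongr
        _ = T / 4 * (8 * (R + 1) * τ) := by ring
    exact le_of_mul_le_mul_left h6 (by positivity)
  · exact ((measure_mono Set.inter_subset_right).trans_lt (by simp)).ne
  · have hvar : ∫ y, ‖trig σ ξ y - m‖ ^ 2 ∂ν ≤ 4 * τ * T := by
      have h4 : ∀ y, ‖trig σ ξ y - m‖ ^ 2 =
          ‖trig σ ξ y‖ ^ 2 - 2 * m * (trig σ ξ y).re + m ^ 2 := by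
        intro y
        rw [← Complex.normSq_eq_norm_sq, ← Complex.normSq_eq_norm_sq, Complex.normSq_apply,
          Complex.normSq_apply]
        simp; ring
      simp_rw [h4]
      have hre : Integrable (fun y => (trig σ ξ y).re) ν := (integrable_trig ν σ ξ).re
      have hre2 : ∫ y, (trig σ ξ y).re ∂ν = m := by
        have := integral_re (integrable_trig ν σ ξ)
        rw [hint] at this
        simpa using this
      have hsub : Integrable (fun y => ‖trig σ ξ y‖ ^ 2 - 2 * m * (trig σ ξ y).re) ν :=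
        (integrable_trig_sq ν σ ξ).sub (hre.const_mul _)
      rw [integral_add hsub (integrable_const _),
        integral_sub (integrable_trig_sq ν σ ξ) (hre.const_mul _), integral_const_mul, hre2]
      simp only [integral_const, probReal_univ, smul_eq_mul, one_mul]
      have h5 : (J * ((1 - τ) * W)) ^ 2 ≤ m ^ 2 :=
        pow_le_pow_left₀ (mul_nonneg hJ.le (mul_nonneg (by linarith) hW.le)) hmge 2
      have h6 : (J * ((1 - τ) * W)) ^ 2 = (1 - τ) ^ 2 * T := by rw [hT]; ring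
      have h7 : (J : ℝ) ^ 2 * ((1 + τ) * W ^ 2) = (1 + τ) * T := by rw [hT]; ring
      rw [h6] at h5
      rw [h7] at hν2
      nlinarith [mul_pos hT0 (mul_pos hτ hτ)]
    have hint2 : Integrable (fun y => ‖trig σ ξ y - m‖ ^ 2) ν := by
      refine Integrable.of_bound
        (((continuous_trig σ ξ).sub continuous_const).norm.pow 2).aestronglyMeasurable
        ((∑ j, ‖σ j‖ + ‖(m : ℂ)‖) ^ 2) (ae_of_all _ fun y => ?_)
      rw [Real.norm_eq_abs, abs_of_nonneg (by positivity)]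
      exact pow_le_pow_left₀ (norm_nonneg _)
        ((norm_sub_le _ _).trans (by linarith [norm_trig_le σ ξ y])) 2
    have h4 := mul_meas_ge_le_integral_of_nonneg (μ := ν)
      (ae_of_all _ fun y => by positivity) hint2 (T / 16)
    have h5 : ν.real {y | T / 16 ≤ ‖trig σ ξ y - m‖ ^ 2} ≤ 64 * τ := by
      have h6 : T / 16 * ν.real {y | T / 16 ≤ ‖trig σ ξ y - m‖ ^ 2} ≤ T / 16 * (64 * τ) := by
        calc _ ≤ 4 * τ * T := h4.trans hvar
          _ = T / 16 * (64 * τ) := by ring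
      exact le_of_mul_le_mul_left h6 (by positivity)
    have hsub : ({y | T / 4 ≤ ‖trig σ ξ y‖ ^ 2} ∩ Set.Icc (-R) R)ᶜ ⊆
        {y | T / 16 ≤ ‖trig σ ξ y - m‖ ^ 2} ∪ (Set.Icc (-R) R)ᶜ := by
      intro y hy
      rw [Set.compl_inter] at hy
      rcases hy with hy | hy
      · left
        simp only [Set.mem_compl_iff, Set.mem_ofPred_eq, not_le] at hy
        simp only [Set.mem_ofPred_eq]
        have h6 : ‖trig σ ξ y‖ < J * W / 2 := by
          refine lt_of_pow_lt_pow_left₀ 2 (by positivity) ?_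
          calc _ < T / 4 := hy
            _ = (J * W / 2) ^ 2 := by rw [hT]; ring
        have h7 : ‖(m : ℂ)‖ - ‖trig σ ξ y‖ ≤ ‖trig σ ξ y - m‖ := by
          rw [norm_sub_rev]; exact norm_sub_norm_le _ _
        have h8 : m ≤ ‖(m : ℂ)‖ := by rw [Complex.norm_real]; exact le_abs_self _
        have h9 : J * W / 4 ≤ ‖trig σ ξ y - m‖ := by
          have : J * W * (3 / 4) ≤ J * ((1 - τ) * W) := by
            have : 0 < J * W := by positivity
            nlinarith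
          linarith
        calc T / 16 = (J * W / 4) ^ 2 := by rw [hT]; ring
          _ ≤ _ := pow_le_pow_left₀ (by positivity) h9 2
      · right; exact hy
    calc ν.real _ ≤ ν.real ({y | T / 16 ≤ ‖trig σ ξ y - m‖ ^ 2} ∪ (Set.Icc (-R) R)ᶜ) :=
          measureReal_mono hsub
      _ ≤ ν.real {y | T / 16 ≤ ‖trig σ ξ y - m‖ ^ 2} + ν.real (Set.Icc (-R) R)ᶜ :=
          measureReal_union_le _ _
      _ ≤ 64 * τ := by rw [measureReal_def _ (Set.Icc (-R) R)ᶜ, hsupp]; simpa using h5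

theorem sing_of_freq (ν : Measure ℝ) [IsProbabilityMeasure ν] (R : ℝ) (hR : 0 ≤ R)
    (hsupp : ν (Set.Icc (-R) R)ᶜ = 0)
    (H : ∀ τ : ℝ, 0 < τ → τ ≤ 1 / 4 → ∃ (J : ℕ) (ξ : Fin J → ℝ) (W : ℝ), 0 < W ∧
      1 ≤ τ * J * W ^ 2 ∧ (∀ j, (1 - τ) * W ≤ ‖charFun ν (ξ j)‖) ∧
      (∀ j l, j ≠ l → ‖charFun ν (ξ j - ξ l)‖ ≤ (1 + τ) * W ^ 2) ∧
      (∀ j l, j ≠ l → (J : ℝ) ≤ |ξ j - ξ l|)) :
    ν.MutuallySingular volume := by
  refine Measure.mutuallySingular_of_disjoint fun x hx1 hx2 => ?_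
  have : IsFiniteMeasure x := isFiniteMeasure_of_le ν hx1
  have key : ∀ τ : ℝ, 0 < τ → τ ≤ 1 / 4 → x.real Set.univ ≤ (8 * (R + 1) + 64) * τ := by
    intro τ hτ hτ1
    obtain ⟨J, ξ, W, hW, hJW, h1, h2, h3⟩ := H τ hτ hτ1
    obtain ⟨E, hE1, hE2, hE3⟩ := exists_set_of_freq ν R hR hsupp τ hτ hτ1 J ξ W hW hJW h1 h2 h3
    have h4 : x.real E ≤ volume.real E := ENNReal.toReal_mono hE2 (hx2 E)
    have h5 : x.real Eᶜ ≤ ν.real Eᶜ := ENNReal.toReal_mono (measure_ne_top _ _) (hx1 Eᶜ)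
    have h6 : x.real Set.univ ≤ x.real E + x.real Eᶜ := by
      rw [← Set.union_compl_self E]; exact measureReal_union_le _ _
    linarith
  have h0 : x.real Set.univ ≤ 0 := by
    refine le_of_forall_pos_le_add fun δ hδ => ?_
    have hC : 0 < 8 * (R + 1) + 64 := by positivity
    have := key (min (1 / 4) (δ / (8 * (R + 1) + 64))) (by positivity) (min_le_left _ _)
    calc _ ≤ _ := this
      _ ≤ (8 * (R + 1) + 64) * (δ / (8 * (R + 1) + 64)) := by gcongr; exact min_le_right _ _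
      _ = 0 + δ := by field_simp; ring
  have h1 : x.real Set.univ = 0 := le_antisymm h0 measureReal_nonneg
  rw [measureReal_eq_zero_iff, Measure.measure_univ_eq_zero] at h1
  rw [h1]; exact le_rfl

end Crest.Agent.R104
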