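import Crest.Agent.R104.Iter
import Crest.Agent.R104.Fourier
import Crest.Agent.R104.Sing

/-! From the states of the iteration to the frequencies used in the singularity criterion. -/

set_option autoImplicit false

namespace Crest.Agent.R104

open Real Finset MeasureTheory Filter Topology Crest.AnalysisR

/-- the window product -/
noncomputable def win (β x : ℝ) (H : ℕ) : ℝ := ∏ k ∈ Ioc (-2 * (H : ℤ)) H, gc (x * β ^ k)

namespace St

variable {β : ℝ} {ζ : ℂ} {x y : ℝ} {z : ℂ} {L : ℕ} {ε ρ S : ℝ}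

lemma win_ge (hβ : 1 < β) (hζ : ‖ζ‖ = 1) (h : St β ζ x y z L ε ρ S) {c : ℝ} (hc : 0 < c)
    (hg : ∀ k : ℤ, c ≤ gc (x * β ^ k)) (H : ℕ) :
    Real.exp (-(5 / c) * (S + 2 * Cb β + 8 * ε ^ 2 * H)) ≤ win β x H := by
  have h1 := h.cost_ext hβ hζ H (Ioc (-2 * (H : ℤ)) H) fun k hk => (Finset.mem_Ioc.1 hk).2
  calc _ ≤ Real.exp (∑ k ∈ Ioc (-2 * (H : ℤ)) H, -(5 / c) * nd (x * β ^ k) ^ 2) := by
        rw [← Finset.mul_sum, Real.exp_le_exp, neg_mul, neg_mul, neg_le_neg_iff]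
        gcongr
    _ = ∏ k ∈ Ioc (-2 * (H : ℤ)) H, Real.exp (-(5 / c) * nd (x * β ^ k) ^ 2) := Real.exp_sum _ _
    _ ≤ _ := Finset.prod_le_prod (fun _ _ => (Real.exp_pos _).le) fun k _ => exp_le_gc hc (hg k)

lemma lower (hβ : 1 < β) (hζ : ‖ζ‖ = 1) (h : St β ζ x y z L ε ρ S) (H M : ℕ) (hLH : L ≤ H)
    (hHM : H ≤ M) :
    (1 - (15 * Cb β * β ^ (-(H : ℤ)) + 40 * ε ^ 2 * M)) * win β x H ≤
      ‖charFun (bernoulliConvolution β⁻¹) (π * (x * β ^ (M : ℤ)))‖ := by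
  have hβ0 : 0 < β := by linarith
  refine le_charFun hβ x M (-2 * H) _ fun a ha => ?_
  have hsub : Ioc (-2 * (H : ℤ)) H ⊆ Ioc a M := Finset.Ioc_subset_Ioc ha (by omega)
  rw [← Finset.prod_sdiff hsub]
  refine mul_le_mul_of_nonneg_right ?_ (Finset.prod_nonneg fun _ _ => gc_nonneg _)
  refine le_trans ?_ (one_sub_sum_le_prod _ _ (fun k => 5 * nd (x * β ^ k) ^ 2)
    (fun _ _ => by positivity) (fun _ _ => gc_nonneg _) (fun _ _ => one_sub_le_gc _))
  rw [← Finset.mul_sum]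
  set B := Ioc a (M : ℤ) \ Ioc (-2 * (H : ℤ)) H with hB
  have h0 : ∑ k ∈ B, nd (x * β ^ k) ^ 2 ≤ 3 * Cb β * β ^ (-(H : ℤ)) + 8 * ε ^ 2 * M := by
    rw [← Finset.sum_filter_add_sum_filter_not B (fun k => k ≤ -2 * (H : ℤ))]
    have h1 := h.sum_tail_le hβ hζ H M (B.filter (fun k => ¬ k ≤ -2 * (H : ℤ))) (fun k hk => by
      simp only [hB, Finset.mem_filter, Finset.mem_sdiff, Finset.mem_Ioc] at hk
      omega)
    have h2 : ∑ k ∈ B.filter (fun k => k ≤ -2 * (H : ℤ)), nd (x * β ^ k) ^ 2 ≤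
        Cb β * β ^ (-(H : ℤ)) := by
      calc _ ≤ ∑ k ∈ B.filter (fun k => k ≤ -2 * (H : ℤ)),
            β ^ (k - (-2 * (H : ℤ))) * β ^ (-(H : ℤ)) := by
            refine Finset.sum_le_sum fun k _ => ?_
            rw [← zpow_add₀ hβ0.ne']
            have h3 := h.abs_u_le hβ k
            have h4 : β ^ ((L : ℤ) + k) ≤ β ^ (k - -2 * (H : ℤ) + -H) :=
              zpow_le_zpow_right₀ hβ.le (by omega)
            have h5 := nd_le_abs (x * β ^ k)
            nlinarith [nd_le_half (x * β ^ k), nd_nonneg (x * β ^ k)]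
        _ ≤ _ := by
            rw [← Finset.sum_mul]
            gcongr
            exact geom_le hβ _ _ fun k hk => (Finset.mem_filter.1 hk).2
    linarith
  linarith

lemma upper (hβ : 1 < β) (hζ : ‖ζ‖ = 1) (h : St β ζ x y z L ε ρ S) {c : ℝ} (hc : 0 < c)
    (hg : ∀ k : ℤ, c ≤ gc (x * β ^ k)) (H M N : ℕ) (hLH : L ≤ H) (hHM : H ≤ M) (hN : 3 * H ≤ N) :
    ‖charFun (bernoulliConvolution β⁻¹) (π * (x * β ^ ((M + N : ℕ) : ℤ)) - π * (x * β ^ (M : ℤ)))‖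
      ≤ Real.exp (24 * H * (β ^ (-(H : ℤ)) + 2 * ε) / c) * win β x H ^ 2 := by
  have hβ0 : 0 < β := by linarith
  have hε := h.eps_nonneg
  set p := β ^ (-(H : ℤ)) + 2 * ε with hp
  have hp0 : 0 ≤ p := by positivity
  have hu : ∀ k : ℤ, x * (β ^ N - 1) * β ^ k = x * β ^ (k + N) - x * β ^ k := by
    intro k; rw [zpow_add₀ hβ0.ne', zpow_natCast]; ring
  have e0 : π * (x * β ^ ((M + N : ℕ) : ℤ)) - π * (x * β ^ (M : ℤ)) =
      π * (x * (β ^ N - 1) * β ^ (M : ℤ)) := by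
    rw [hu]; push_cast; ring
  rw [e0]
  have key : ∀ (k : ℤ) (b : ℝ), nd b ≤ p → gc (x * β ^ k + b) ≤ Real.exp (4 * p / c) * gc (x * β ^ k) := by
    intro k b hb
    have h1 := gc_add_le (x * β ^ k) b
    have h2 := Real.add_one_le_exp (4 * p / c)
    have h3 := hg k
    have h4 : 4 * p ≤ 4 * p / c * gc (x * β ^ k) := by
      rw [div_mul_eq_mul_div, le_div_iff₀ hc]; gcongr
    calc _ ≤ (4 * p / c + 1) * gc (x * β ^ k) := by linarith
      _ ≤ _ := mul_le_mul_of_nonneg_right h2 (gc_nonneg _)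
  have hdisj : Disjoint (Ioc (-2 * (H : ℤ)) H) ((Ioc (-2 * (H : ℤ)) H).image (fun k => k - N)) := by
    rw [Finset.disjoint_left]
    intro k hk hk'
    obtain ⟨l, hl, rfl⟩ := Finset.mem_image.1 hk'
    rw [Finset.mem_Ioc] at hk hl
    omega
  refine (charFun_le_prod hβ _ M
    (Ioc (-2 * (H : ℤ)) H ∪ (Ioc (-2 * (H : ℤ)) H).image (fun k => k - N)) ?_).trans ?_
  · intro k hk
    rcases Finset.mem_union.1 hk with hk | hk
    · rw [Finset.mem_Ioc] at hk; omega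
    · obtain ⟨l, hl, rfl⟩ := Finset.mem_image.1 hk
      rw [Finset.mem_Ioc] at hl; omega
  rw [Finset.prod_union hdisj, Finset.prod_image (fun _ _ _ _ h => by simpa using h)]
  have hcard : (Ioc (-2 * (H : ℤ)) H).card = 3 * H := by rw [Int.card_Ioc]; omega
  have hprod : ∏ k ∈ Ioc (-2 * (H : ℤ)) H, (Real.exp (4 * p / c) * gc (x * β ^ k)) =
      Real.exp (12 * H * p / c) * win β x H := by
    rw [Finset.prod_mul_distrib, Finset.prod_const, hcard, ← Real.exp_nat_mul, win]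
    congr 2; push_cast; ring
  have e1 : ∏ k ∈ Ioc (-2 * (H : ℤ)) H, gc (x * (β ^ N - 1) * β ^ k) ≤
      Real.exp (12 * H * p / c) * win β x H := by
    rw [← hprod]
    refine Finset.prod_le_prod (fun _ _ => gc_nonneg _) fun k hk => ?_
    rw [Finset.mem_Ioc] at hk
    have h1 : x * (β ^ N - 1) * β ^ k = -(x * β ^ k + -(x * β ^ (k + N))) := by rw [hu]; ring
    rw [h1, gc_neg]
    refine key k _ ((nd_neg_le _).trans ((h.nd_u_le hβ hζ _).trans ?_))
    rw [hp]; gcongr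
    · exact hβ.le
    · omega
  have e2 : ∏ k ∈ Ioc (-2 * (H : ℤ)) H, gc (x * (β ^ N - 1) * β ^ (k - N)) ≤
      Real.exp (12 * H * p / c) * win β x H := by
    rw [← hprod]
    refine Finset.prod_le_prod (fun _ _ => gc_nonneg _) fun k hk => ?_
    rw [Finset.mem_Ioc] at hk
    have h1 : x * (β ^ N - 1) * β ^ (k - N) = x * β ^ k + -(x * β ^ (k - N)) := by
      rw [hu, sub_add_cancel]; ring
    rw [h1]
    refine key k _ ((nd_neg_le _).trans ((nd_le_abs _).trans ((h.abs_u_le hβ _).trans ?_)))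
    have : β ^ ((L : ℤ) + (k - N)) ≤ β ^ (-(H : ℤ)) := zpow_le_zpow_right₀ hβ.le (by omega)
    linarith
  have hw : 0 ≤ win β x H := Finset.prod_nonneg fun _ _ => gc_nonneg _
  calc _ ≤ (Real.exp (12 * H * p / c) * win β x H) * (Real.exp (12 * H * p / c) * win β x H) :=
        mul_le_mul e1 e2 (Finset.prod_nonneg fun _ _ => gc_nonneg _) (by positivity)
    _ = _ := by
        rw [mul_mul_mul_comm, ← Real.exp_add, ← pow_two (win β x H)]
        congr 2; ring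

end St

lemma exp_le_one_add {a : ℝ} (h0 : 0 ≤ a) (h1 : a ≤ 1) : Real.exp a ≤ 1 + 2 * a := by
  have := Real.abs_exp_sub_one_le (x := a) (by rw [abs_of_nonneg h0]; exact h1)
  rw [abs_of_nonneg h0] at this
  linarith [le_abs_self (Real.exp a - 1)]

theorem sing_main {β : ℝ} {ζ : ℂ} (hβ : 1 < β) (hζ : ‖ζ‖ = 1)
    (hlat : ∀ k : ℤ, ∃ m : ℤ, β ^ k + β ^ (-k) + 2 * (ζ ^ k).re = m)
    (hint : ∀ k : ℤ, IsIntegral ℤ (β ^ k)) :
    (bernoulliConvolution β⁻¹).MutuallySingular (volume : Measure ℝ) := by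
  have hβ0 : 0 < β := by linarith
  have hi1 : 0 < β⁻¹ := by positivity
  have hi2 : β⁻¹ < 1 := inv_lt_one_of_one_lt₀ hβ
  have := bern_prob hi1.le hi2
  obtain ⟨ρs, hρs, hinv⟩ := exists_inv hβ hζ hlat hint
  refine sing_of_freq _ (1 - β⁻¹)⁻¹ (inv_nonneg.2 (by linarith)) (bern_supp hi1.le hi2)
    fun τ hτ hτ1 => ?_
  set ρ' := max ρs 0 with hρ'
  have hρ'1 : ρ' < 1 / 2 := max_lt hρs (by norm_num)
  set c := Real.cos (π * ρ') with hc
  have hc0 : 0 < c := by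
    have hpi := Real.pi_pos
    have h0 : 0 ≤ ρ' := le_max_right _ _
    apply Real.cos_pos_of_mem_Ioo
    constructor <;> nlinarith
  have hc1 : c ≤ 1 := Real.cos_le_one _
  have hCb := one_le_Cb hβ
  -- choose the small parameter
  set κ := τ * c / (1000 * Cb β) with hκ
  have hκ0 : 0 < κ := by positivity
  have hκτ : 1000 * Cb β * κ = τ * c := by rw [hκ]; field_simp
  have hκ1 : 1000 * κ ≤ τ * c := by nlinarith
  have hκ2 : 1000 * κ ≤ τ := by nlinarith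
  have t := tendsto_pow_const_mul_const_pow_of_abs_lt_one 2 (r := β⁻¹)
    (by rw [abs_of_pos hi1]; exact hi2)
  obtain ⟨H₀, hH₀⟩ := eventually_atTop.1 (t.eventually (ge_mem_nhds hκ0))
  set r₀ := min κ (1 / ((H₀ : ℝ) + 1)) with hr₀
  have hr₀0 : 0 < r₀ := by positivity
  obtain ⟨x, y, z, L, ε, ρ, S, hst, hε0, hεη, hL, hρ, hεL, hS⟩ :=
    hinv (c / 20) (r₀ ^ 4) (by positivity) (by positivity)
  obtain ⟨r, hr0, hrε⟩ : ∃ r : ℝ, 0 < r ∧ r ^ 4 = ε :=
    ⟨√(√ε), by positivity, by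
      rw [show (4 : ℕ) = 2 * 2 from rfl, pow_mul, Real.sq_sqrt (by positivity),
        Real.sq_sqrt hε0.le]⟩
  subst hrε
  have hrr₀ : r ≤ r₀ := le_of_pow_le_pow_left₀ (by norm_num) hr₀0.le hεη
  have hrκ : r ≤ κ := hrr₀.trans (min_le_left _ _)
  have hr1 : r ≤ 1 / 1000 := by linarith
  have hrH₀ : r * (H₀ + 1) ≤ 1 := by
    have := hrr₀.trans (min_le_right _ _)
    rwa [le_div_iff₀ (by positivity)] at this
  have hrL : r ^ 3 * L ≤ 1 := by
    have h1 : r ^ 4 * L ≤ r := le_of_pow_le_pow_left₀ (by norm_num) hr0.le hεL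
    have h2 : r * (r ^ 3 * L) ≤ r * 1 := by nlinarith
    exact le_of_mul_le_mul_left h2 hr0
  have ceil_bd : ∀ n : ℕ, 1 ≤ r ^ n * (⌈(r ^ n)⁻¹⌉₊ : ℝ) ∧ r ^ n * (⌈(r ^ n)⁻¹⌉₊ : ℝ) ≤ 2 := by
    intro n
    have h0 : 0 < r ^ n := by positivity
    have h1 := mul_le_mul_of_nonneg_left (Nat.le_ceil (r ^ n)⁻¹) h0.le
    have h2 := mul_le_mul_of_nonneg_left
      (Nat.ceil_lt_add_one (a := (r ^ n)⁻¹) (by positivity)).le h0.le
    rw [mul_inv_cancel₀ h0.ne'] at h1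
    rw [mul_add, mul_inv_cancel₀ h0.ne'] at h2
    have h3 : r ^ n ≤ 1 := pow_le_one₀ hr0.le (by linarith)
    exact ⟨h1, by linarith⟩
  obtain ⟨hH1, hH2⟩ := ceil_bd 3
  obtain ⟨hJ1, hJ2⟩ := ceil_bd 4
  set H := ⌈(r ^ 3)⁻¹⌉₊ with hH
  set J := ⌈(r ^ 4)⁻¹⌉₊ with hJ
  have hr3 : 0 < r ^ 3 := by positivity
  have hr4 : 0 < r ^ 4 := by positivity
  have hLH : L ≤ H := by
    have : (L : ℝ) ≤ H := le_of_mul_le_mul_left (hrL.trans hH1) hr3
    exact_mod_cast this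
  have hHH₀ : H₀ ≤ H := by
    have h1 : r ^ 3 ≤ r := pow_le_of_le_one hr0.le (by linarith) (by norm_num)
    have h2 : r ^ 3 * (H₀ + 1) ≤ 1 := le_trans (by gcongr) hrH₀
    have : (H₀ : ℝ) + 1 ≤ H := le_of_mul_le_mul_left (h2.trans hH1) hr3
    have : H₀ + 1 ≤ H := by exact_mod_cast this
    omega
  have hHge1 : (1 : ℝ) ≤ H := by
    have h3 : r ^ 3 ≤ 1 := pow_le_one₀ hr0.le (by linarith)
    nlinarith [Nat.cast_nonneg (α := ℝ) H]
  have hb0 : 0 < β ^ (-(H : ℤ)) := by positivity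
  have hHκ : (H : ℝ) ^ 2 * β ^ (-(H : ℤ)) ≤ κ := by
    have := hH₀ H hHH₀
    rwa [inv_pow, ← zpow_natCast β, ← zpow_neg] at this
  have hHκ1 : (H : ℝ) * β ^ (-(H : ℤ)) ≤ κ := le_trans (by gcongr; nlinarith) hHκ
  have hHκ0 : β ^ (-(H : ℤ)) ≤ κ := le_trans (le_mul_of_one_le_left hb0.le hHge1) hHκ1
  have hg : ∀ k : ℤ, c ≤ gc (x * β ^ k) := fun k => by
    refine cos_le_gc ((hst.sep_u k).trans ?_) hρ'1.le
    have : 0 < β ^ (-(L : ℤ)) := by positivity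
    linarith [le_max_left ρs 0]
  have hW := hst.win_ge hβ hζ hc0 hg H
  have hW2 : r ≤ win β x H := by
    refine le_trans ?_ hW
    have h1 : 8 * (r ^ 4) ^ 2 * H ≤ 44 := by
      have : 8 * (r ^ 4) ^ 2 * H = 8 * r ^ 5 * (r ^ 3 * H) := by ring
      rw [this]
      have h3 : r ^ 5 ≤ 1 := pow_le_one₀ hr0.le (by linarith)
      nlinarith [pow_pos hr0 5]
    have h2 : S + 2 * Cb β + 8 * (r ^ 4) ^ 2 * H ≤ c / 20 * (-Real.log (r ^ 4)) := by linarith
    rw [Real.log_pow] at h2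
    have h3 : 5 / c * (S + 2 * Cb β + 8 * (r ^ 4) ^ 2 * H) ≤ -Real.log r := by
      calc _ ≤ 5 / c * (c / 20 * -(((4 : ℕ) : ℝ) * Real.log r)) := by gcongr
        _ = _ := by push_cast; field_simp; ring
    calc r = Real.exp (Real.log r) := (Real.exp_log hr0).symm
      _ ≤ _ := Real.exp_le_exp.2 (by linarith)
  have hW0 : 0 < win β x H := hr0.trans_le hW2
  have hup : ∀ j l : Fin J, l < j →
      ‖charFun (bernoulliConvolution β⁻¹) (π * (x * β ^ (((j + 1) * (3 * H) : ℕ) : ℤ)) -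
        π * (x * β ^ (((l + 1) * (3 * H) : ℕ) : ℤ)))‖ ≤ (1 + τ) * win β x H ^ 2 := by
    intro j l hlj
    have hlj' : (l : ℕ) < j := hlj
    have h1 : ((j : ℕ) + 1) * (3 * H) = (l + 1) * (3 * H) + (j - l) * (3 * H) := by
      rw [← add_mul]; congr 1; omega
    rw [h1]
    refine (hst.upper hβ hζ hc0 hg H _ _ hLH (by nlinarith)
      (Nat.le_mul_of_pos_left _ (by omega))).trans ?_
    gcongr
    have h2 : 24 * H * (β ^ (-(H : ℤ)) + 2 * r ^ 4) / c ≤ τ / 2 := by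
      rw [div_le_iff₀ hc0]
      have : 24 * H * (β ^ (-(H : ℤ)) + 2 * r ^ 4) =
        24 * (H * β ^ (-(H : ℤ))) + 48 * r * (r ^ 3 * H) := by ring
      rw [this]
      nlinarith
    calc _ ≤ Real.exp (τ / 2) := Real.exp_le_exp.2 h2
      _ ≤ 1 + 2 * (τ / 2) := exp_le_one_add (by positivity) (by linarith)
      _ = 1 + τ := by ring
  have hgap : ∀ j l : Fin J, l < j → (J : ℝ) ≤
      π * (x * β ^ (((j + 1) * (3 * H) : ℕ) : ℤ)) - π * (x * β ^ (((l + 1) * (3 * H) : ℕ) : ℤ)) := by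
    intro j l hlj
    have hlj' : (l : ℕ) < j := hlj
    have h1 : ((j : ℕ) + 1) * (3 * H) = (l + 1) * (3 * H) + (j - l) * (3 * H) := by
      rw [← add_mul]; congr 1; omega
    rw [h1, zpow_natCast, zpow_natCast, pow_add]
    have h2 : β ^ H ≤ β ^ (((l : ℕ) + 1) * (3 * H)) := pow_le_pow_right₀ hβ.le (by nlinarith)
    have h3 : 2 ≤ β ^ (((j : ℕ) - l) * (3 * H)) :=
      hL.trans (pow_le_pow_right₀ hβ.le
        (le_trans (by omega) (Nat.le_mul_of_pos_left (3 * H) (by omega))))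
    have h4 : (J : ℝ) ≤ β ^ H := by
      have h5 : (J : ℝ) ≤ 2 * H ^ 2 := by
        have h6 : r ^ 6 * J ≤ r ^ 6 * (2 * H ^ 2) := by
          have h7 : r ^ 6 * J = r ^ 2 * (r ^ 4 * J) := by ring
          have h8 : r ^ 6 * (2 * H ^ 2) = 2 * (r ^ 3 * H) ^ 2 := by ring
          have h9 : r ^ 2 ≤ 1 := pow_le_one₀ hr0.le (by linarith)
          rw [h7, h8]
          nlinarith [pow_pos hr0 2]
        exact le_of_mul_le_mul_left h6 (by positivity)
      rw [zpow_neg, zpow_natCast, ← div_eq_mul_inv, div_le_iff₀ (by positivity)] at hHκ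
      have : 0 < β ^ H := by positivity
      nlinarith
    have h5 : π * (x * (β ^ (((l : ℕ) + 1) * (3 * H)) * β ^ (((j : ℕ) - l) * (3 * H)))) -
        π * (x * β ^ (((l : ℕ) + 1) * (3 * H))) =
        π * x * β ^ (((l : ℕ) + 1) * (3 * H)) * (β ^ (((j : ℕ) - l) * (3 * H)) - 1) := by ring
    rw [h5]
    calc (J : ℝ) ≤ 1 * 1 * β ^ H * 1 := by linarith
      _ ≤ _ := by
        have := hst.x_ge
        gcongr
        · linarith [Real.pi_gt_three]
        · linarith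
  refine ⟨J, fun j => π * (x * β ^ (((j + 1) * (3 * H) : ℕ) : ℤ)), win β x H, hW0, ?_, ?_, ?_, ?_⟩
  · calc (1 : ℝ) ≤ r ^ 4 * J := hJ1
      _ = r ^ 2 * J * r ^ 2 := by ring
      _ ≤ τ * J * win β x H ^ 2 := by
          gcongr
          nlinarith
  · intro j
    refine le_trans ?_ (hst.lower hβ hζ H (((j : ℕ) + 1) * (3 * H)) hLH (by nlinarith))
    gcongr
    have h1 : ((((j : ℕ) + 1) * (3 * H) : ℕ) : ℝ) ≤ J * (3 * H) := by
      have : ((j : ℕ) + 1) * (3 * H) ≤ J * (3 * H) := Nat.mul_le_mul_right _ j.2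
      exact_mod_cast this
    have h2 : 40 * (r ^ 4) ^ 2 * ((((j : ℕ) + 1) * (3 * H) : ℕ) : ℝ) ≤ 480 * r := by
      calc _ ≤ 40 * (r ^ 4) ^ 2 * (J * (3 * H)) := by gcongr
        _ = 120 * r * ((r ^ 4 * J) * (r ^ 3 * H)) := by ring
        _ ≤ 120 * r * (2 * 2) := by gcongr
        _ = _ := by ring
    have h3 : 15 * Cb β * β ^ (-(H : ℤ)) ≤ 15 * Cb β * κ := by gcongr
    nlinarith
  · intro j l hjl
    rcases lt_or_gt_of_ne hjl with h | h
    · rw [← neg_sub, charFun_neg, Complex.norm_conj]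
      exact hup l j h
    · exact hup j l h
  · intro j l hjl
    rcases lt_or_gt_of_ne hjl with h | h
    · rw [abs_sub_comm]
      exact (hgap l j h).trans (le_abs_self _)
    · exact (hgap j l h).trans (le_abs_self _)

end Crest.Agent.R104
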