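import Crest.Agent.R104.Step

/-! The iteration: states with very small `ε` and cost `S ≤ s log (1 / ε)`, `s` arbitrarily small. -/

set_option autoImplicit false

namespace Crest.Agent.R104

open Real Finset Filter Topology

/-- invariant of the iteration -/
def Inv (β : ℝ) (ζ : ℂ) (ρs s η : ℝ) : Prop :=
  ∃ (x y : ℝ) (z : ℂ) (L : ℕ) (ε ρ S : ℝ), St β ζ x y z L ε ρ S ∧ 0 < ε ∧ ε ≤ η ∧ 2 ≤ β ^ L ∧
    ρ + 2 * β ^ (-(L : ℤ)) + 2 * ε ≤ ρs ∧ (ε * L) ^ 4 ≤ ε ∧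
    S + (4 * Cb β + 44) ≤ s * (-Real.log ε)

variable {β : ℝ} {ζ : ℂ}

lemma zpow_neg_le_half {L : ℕ} (hL : 2 ≤ β ^ L) : β ^ (-(L : ℤ)) ≤ 1 / 2 := by
  rw [zpow_neg, zpow_natCast, one_div]
  exact inv_anti₀ (by norm_num) hL

lemma iter1 (hβ : 1 < β) (hζ : ‖ζ‖ = 1) {x y : ℝ} {z : ℂ} {L : ℕ} {ε ρ S ρs : ℝ}
    (h : St β ζ x y z L ε ρ S) (hε0 : 0 < ε) (hε : ε ≤ 1 / 10 ^ 30) (hεL : ε * L ≤ 1)
    (hL : 2 ≤ β ^ L) (hρ : ρ + 2 * β ^ (-(L : ℤ)) + 2 * ε ≤ ρs) :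
    ∃ (x' y' : ℝ) (z' : ℂ) (L' : ℕ) (ε' ρ' S' : ℝ), St β ζ x' y' z' L' ε' ρ' S' ∧ 0 < ε' ∧
      ε' ≤ 28 * ε ^ 2 * (ε * L) ∧ 2 ≤ β ^ L' ∧ ρ' + 2 * β ^ (-(L' : ℤ)) + 2 * ε' ≤ ρs ∧
      (ε' * L') ^ 4 ≤ ε' ∧ S' + (4 * Cb β + 44) ≤ 2 * (S + (4 * Cb β + 44)) := by
  have hβ0 : 0 < β := by linarith
  set K := ⌈(ε ^ 2)⁻¹⌉₊ with hK
  have hK1 : (ε ^ 2)⁻¹ ≤ K := Nat.le_ceil _
  have hK2 : (K : ℝ) < (ε ^ 2)⁻¹ + 1 := Nat.ceil_lt_add_one (by positivity)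
  have hK0 : (0 : ℝ) < K := lt_of_lt_of_le (by positivity) hK1
  have hε2 : 0 < ε ^ 2 := by positivity
  have hε1 : ε ≤ 1 / 1000 := hε.trans (by norm_num)
  have hK3 : 1 ≤ ε ^ 2 * K := by
    have := mul_le_mul_of_nonneg_left hK1 hε2.le
    rwa [mul_inv_cancel₀ hε2.ne'] at this
  have hK4 : ε ^ 2 * K ≤ 2 := by
    have := mul_le_mul_of_nonneg_left hK2.le hε2.le
    rw [mul_add, mul_inv_cancel₀ hε2.ne'] at this
    nlinarith
  have hK5 : 1 / (K : ℝ) ≤ ε ^ 2 := by rw [div_le_iff₀ hK0]; exact hK3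
  have hK6 : ε ^ 2 / 2 ≤ 1 / (K : ℝ) := by rw [le_div_iff₀ hK0]; linarith
  obtain ⟨N, L', ε', hL', e1, e2, e3, hst⟩ := h.step2 hβ hζ hL K (by exact_mod_cast hK0)
  have hL0 : (0 : ℝ) ≤ L := Nat.cast_nonneg _
  have f1 : ε ^ 3 ≤ ε' := by
    refine le_trans ?_ e1
    have : 7 * ε / K = 7 * ε * (1 / K) := by ring
    rw [this]
    calc ε ^ 3 ≤ 7 * ε * (ε ^ 2 / 2) := by nlinarith [pow_pos hε0 3]
      _ ≤ _ := by gcongr
  have f2 : ε' ≤ 28 * ε ^ 2 * (ε * L) := by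
    refine e2.trans ?_
    have : 28 * ε * L / K = 28 * (1 / K) * (ε * L) := by ring
    rw [this]; gcongr
  have f0 : 0 < ε' := lt_of_lt_of_le (by positivity) f1
  have f3 : ε' * L' ≤ 140 * ε := by
    refine e3.trans ?_
    have h1 : 19 * (L : ℝ) ^ 2 / K = 19 * L ^ 2 * (1 / K) := by ring
    have h2 : 19 * (L : ℝ) ^ 2 * (1 / K) ≤ 19 * L ^ 2 * ε ^ 2 := by gcongr
    have h3 : (ε * L) ^ 2 ≤ 1 := pow_le_one₀ (by positivity) hεL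
    have h4 : 19 * (L : ℝ) ^ 2 / K ≤ 19 := by rw [h1]; nlinarith
    nlinarith
  have f4 : ε' ≤ 28 * ε ^ 2 := f2.trans (mul_le_of_le_one_right (by positivity) hεL)
  refine ⟨_, _, _, L', ε', _, _, hst, f0, f2, hL.trans (pow_le_pow_right₀ hβ.le (by omega)),
    ?_, ?_, ?_⟩
  · have h1 : β ^ (-(L' : ℤ)) ≤ β ^ (-(L : ℤ)) * β ^ (-(L : ℤ)) := by
      rw [← zpow_add₀ hβ0.ne']
      exact zpow_le_zpow_right₀ hβ.le (by omega)
    have h2 := zpow_neg_le_half hL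
    have h3 : 0 < β ^ (-(L : ℤ)) := by positivity
    nlinarith
  · calc (ε' * L') ^ 4 ≤ (140 * ε) ^ 4 := pow_le_pow_left₀ (by positivity) f3 4
      _ = (140 ^ 4 * ε) * ε ^ 3 := by ring
      _ ≤ 1 * ε ^ 3 := by
          gcongr
          calc 140 ^ 4 * ε ≤ 140 ^ 4 * (1 / 10 ^ 30) := by gcongr
            _ ≤ 1 := by norm_num
      _ ≤ ε' := by linarith
  · have h1 : ε ^ 2 * L ≤ 1 := by nlinarith
    nlinarith

lemma iter2 (hβ : 1 < β) (hζ : ‖ζ‖ = 1) {ρs s η : ℝ} (h : Inv β ζ ρs s η) (hs : 0 ≤ s)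
    (hη : η ≤ 1 / 10 ^ 30) : Inv β ζ ρs (s * (10 / 11)) (η * (1 / 2)) := by
  obtain ⟨x, y, z, L, ε, ρ, S, hst, hε0, hεη, hL, hρ, hεL, hS⟩ := h
  have hε : ε ≤ 1 / 10 ^ 30 := hεη.trans hη
  have hε1 : ε ≤ 1 / 1000 := hε.trans (by norm_num)
  have hεL1 : ε * L ≤ 1 := by
    refine le_of_pow_le_pow_left₀ (n := 4) (by norm_num) zero_le_one ?_
    rw [one_pow]; linarith
  obtain ⟨x', y', z', L', ε', ρ', S', hst', h0, h1, h2, h3, h4, h5⟩ :=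
    iter1 hβ hζ hst hε0 hε hεL1 hL hρ
  refine ⟨x', y', z', L', ε', ρ', S', hst', h0, ?_, h2, h3, h4, ?_⟩
  · have f4 : ε' ≤ 28 * ε ^ 2 := h1.trans (mul_le_of_le_one_right (by positivity) hεL1)
    nlinarith
  · have h6 : ε' ^ 4 ≤ 28 ^ 4 * ε ^ 9 := by
      calc ε' ^ 4 ≤ (28 * ε ^ 2 * (ε * L)) ^ 4 := pow_le_pow_left₀ h0.le h1 4
        _ = 28 ^ 4 * ε ^ 8 * (ε * L) ^ 4 := by ring
        _ ≤ 28 ^ 4 * ε ^ 8 * ε := by gcongr
        _ = _ := by ring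
    have h7 : ε' ^ 20 ≤ ε ^ 44 := by
      calc ε' ^ 20 = (ε' ^ 4) ^ 5 := by ring
        _ ≤ (28 ^ 4 * ε ^ 9) ^ 5 := pow_le_pow_left₀ (by positivity) h6 5
        _ = (28 ^ 20 * ε) * ε ^ 44 := by ring
        _ ≤ 1 * ε ^ 44 := by
            gcongr
            calc 28 ^ 20 * ε ≤ 28 ^ 20 * (1 / 10 ^ 30) := by gcongr
              _ ≤ 1 := by norm_num
        _ = _ := one_mul _
    have h8 := Real.log_le_log (by positivity) h7
    rw [Real.log_pow, Real.log_pow] at h8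
    push_cast at h8
    have h9 : s * (-Real.log ε) ≤ s * (5 / 11 * (-Real.log ε')) := by
      gcongr; linarith
    linarith

lemma Inv.mono {ρs s η s' η' : ℝ} (h : Inv β ζ ρs s η) (hη : η ≤ 1) (h1 : s ≤ s') (h2 : η ≤ η') :
    Inv β ζ ρs s' η' := by
  obtain ⟨x, y, z, L, ε, ρ, S, hst, hε0, hεη, hL, hρ, hεL, hS⟩ := h
  refine ⟨x, y, z, L, ε, ρ, S, hst, hε0, hεη.trans h2, hL, hρ, hεL, hS.trans ?_⟩
  have : 0 ≤ -Real.log ε := by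
    have := Real.log_nonpos hε0.le (hεη.trans hη)
    linarith
  gcongr

lemma inv_all (hβ : 1 < β) (hζ : ‖ζ‖ = 1) {ρs s : ℝ} (h : Inv β ζ ρs s (1 / 10 ^ 30))
    (hs : 0 ≤ s) (s' η' : ℝ) (hs' : 0 < s') (hη' : 0 < η') : Inv β ζ ρs s' η' := by
  have key : ∀ n : ℕ, Inv β ζ ρs (s * (10 / 11) ^ n) (1 / 10 ^ 30 * (1 / 2) ^ n) := by
    intro n
    induction n with
    | zero => simpa using h
    | succ n ih =>
      have := iter2 hβ hζ ih (by positivity)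
        (mul_le_of_le_one_right (by positivity) (pow_le_one₀ (by norm_num) (by norm_num)))
      rwa [mul_assoc, mul_assoc, ← pow_succ, ← pow_succ] at this
  have t1 : Tendsto (fun n : ℕ => s * (10 / 11 : ℝ) ^ n) atTop (𝓝 0) := by
    simpa using (tendsto_pow_atTop_nhds_zero_of_lt_one (r := (10 / 11 : ℝ)) (by norm_num)
      (by norm_num)).const_mul s
  have t2 : Tendsto (fun n : ℕ => (1 / 10 ^ 30 : ℝ) * (1 / 2 : ℝ) ^ n) atTop (𝓝 0) := by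
    have := (tendsto_pow_atTop_nhds_zero_of_lt_one (r := (1 / 2 : ℝ)) (by norm_num)
      (by norm_num)).const_mul (1 / 10 ^ 30 : ℝ)
    rwa [mul_zero] at this
  obtain ⟨n, hn1, hn2⟩ := ((t1.eventually (ge_mem_nhds hs')).and
    (t2.eventually (ge_mem_nhds hη'))).exists
  refine (key n).mono ?_ hn1 hn2
  exact mul_le_one₀ (by norm_num) (by positivity) (pow_le_one₀ (by norm_num) (by norm_num))

lemma nd_lt_half {t : ℝ} (ht : IsIntegral ℤ t) : nd t < 1 / 2 := by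
  refine lt_of_le_of_ne (nd_le_half t) fun h => ?_
  have h1 : IsIntegral ℤ (t - round t) := by
    refine ht.sub ?_
    exact isIntegral_algebraMap (R := ℤ) (A := ℝ) (x := round t)
  have h2 : IsIntegral ℤ (1 / 2 : ℝ) := by
    unfold nd at h
    rcases (abs_eq (by norm_num)).1 h with h | h
    · rwa [h] at h1
    · have := h1.neg
      rwa [h, neg_neg] at this
  have h3 : (1 / 2 : ℝ) = algebraMap ℚ ℝ (1 / 2) := by simp
  rw [h3, isIntegral_algebraMap_iff (algebraMap ℚ ℝ).injective,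
    IsIntegrallyClosed.isIntegral_iff] at h2
  obtain ⟨m, hm⟩ := h2
  have h4 : (2 * m : ℚ) = 1 := by
    have : (m : ℚ) = 1 / 2 := by simpa using hm
    rw [this]; norm_num
  have h5 : 2 * m = 1 := by exact_mod_cast h4
  omega

lemma exists_zpow_neg_le (hβ : 1 < β) {γ : ℝ} (hγ : 0 < γ) (L₀ : ℕ) :
    ∃ L : ℕ, L₀ ≤ L ∧ β ^ (-(L : ℤ)) ≤ γ := by
  have h1 : 0 < β⁻¹ := by positivity
  have h2 : β⁻¹ < 1 := inv_lt_one_of_one_lt₀ hβ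
  have t := tendsto_pow_atTop_nhds_zero_of_lt_one h1.le h2
  obtain ⟨L, hL1, hL2⟩ := ((eventually_ge_atTop L₀).and (t.eventually (ge_mem_nhds hγ))).exists
  refine ⟨L, hL1, ?_⟩
  rwa [zpow_neg, zpow_natCast, ← inv_pow]

lemma two_le_of_zpow_neg_le (hβ : 1 < β) {L : ℕ} (h : β ^ (-(L : ℤ)) ≤ 1 / 2) : 2 ≤ β ^ L := by
  rw [zpow_neg, zpow_natCast, one_div] at h
  exact (inv_le_inv₀ (by positivity) (by norm_num)).1 h

lemma St.improve (hβ : 1 < β) (hζ : ‖ζ‖ = 1) {x y : ℝ} {z : ℂ} {L : ℕ} {ε ρ S : ℝ}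
    (h : St β ζ x y z L ε ρ S) (hε : ε ≤ 1 / 16) (hx : ∀ k : ℤ, IsIntegral ℤ (x * β ^ k))
    (hy : ∀ k : ℤ, IsIntegral ℤ (y * β ^ (-k))) :
    ∃ ρ' : ℝ, ρ' < 1 / 2 ∧ St β ζ x y z L ε ρ' S := by
  obtain ⟨k₁, -, hk₁⟩ := exists_zpow_neg_le hβ (γ := 1 / 8) (by norm_num) 0
  obtain ⟨k₀, -, hk₀⟩ := (Icc (-(L : ℤ) - k₁) k₁).exists_max_image
    (fun k => max (nd (x * β ^ k)) (nd (y * β ^ (-k)))) ⟨0, by rw [Finset.mem_Icc]; omega⟩
  have key : ∀ k : ℤ, max (nd (x * β ^ k)) (nd (y * β ^ (-k))) ≤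
      max (1 / 4) (max (nd (x * β ^ k₀)) (nd (y * β ^ (-k₀)))) := by
    intro k
    by_cases h1 : (k₁ : ℤ) < k
    · refine le_trans ?_ (le_max_left _ _)
      have h2 : β ^ (-k) ≤ 1 / 8 := (zpow_le_zpow_right₀ hβ.le (by omega)).trans hk₁
      refine max_le ?_ ?_
      · linarith [h.nd_u_le hβ hζ k]
      · linarith [h.abs_v_le hβ k, nd_le_abs (y * β ^ (-k))]
    · by_cases h2 : k < -(L : ℤ) - k₁
      · refine le_trans ?_ (le_max_left _ _)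
        have h3 : β ^ ((L : ℤ) + k) ≤ 1 / 8 := (zpow_le_zpow_right₀ hβ.le (by omega)).trans hk₁
        have h4 : nd (x * β ^ k) ≤ 1 / 8 := by linarith [h.abs_u_le hβ k, nd_le_abs (x * β ^ k)]
        refine max_le (by linarith) ?_
        obtain ⟨m, hm⟩ := h.lat k
        rw [add_comm (x * β ^ k)] at hm
        linarith [nd_le_of_int hm, abs_w_le hζ h.z_le k]
      · exact (hk₀ k (by rw [Finset.mem_Icc]; omega)).trans (le_max_right _ _)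
  refine ⟨max (1 / 4) (max (nd (x * β ^ k₀)) (nd (y * β ^ (-k₀)))),
    max_lt (by norm_num) (max_lt (nd_lt_half (hx _)) (nd_lt_half (hy _))), ?_⟩
  exact { h with
    sep_u := fun k => (le_max_left _ _).trans (key k)
    sep_v := fun k => (le_max_right _ _).trans (key k) }

theorem exists_inv (hβ : 1 < β) (hζ : ‖ζ‖ = 1)
    (hlat : ∀ k : ℤ, ∃ m : ℤ, β ^ k + β ^ (-k) + 2 * (ζ ^ k).re = m)
    (hint : ∀ k : ℤ, IsIntegral ℤ (β ^ k)) :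
    ∃ ρs : ℝ, ρs < 1 / 2 ∧ ∀ s η : ℝ, 0 < s → 0 < η → Inv β ζ ρs s η := by
  have hβ0 : 0 < β := by linarith
  obtain ⟨L₀, -, hL₀⟩ := exists_zpow_neg_le hβ (γ := 1 / 2) (by norm_num) 0
  have hL₀' := two_le_of_zpow_neg_le hβ hL₀
  have h0 : St β ζ 1 1 1 L₀ 1 (1 / 2) (Cb β) := by
    refine ⟨by simpa using hlat, le_rfl, by linarith, by simp, by simp, fun _ => nd_le_half _,
      fun _ => nd_le_half _, fun A hA => ?_⟩
    refine le_trans (Finset.sum_le_sum fun k hk => ?_) (geom_le hβ A 0 hA)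
    rw [one_mul, sub_zero]
    have h1 := nd_le_abs (β ^ k)
    rw [abs_of_pos (by positivity)] at h1
    nlinarith [nd_le_half (β ^ k), nd_nonneg (β ^ k)]
  obtain ⟨N, L₁, ε₁, hL₁, e1, e2, -, hst₁⟩ := h0.step2 hβ hζ hL₀' (448 * L₀ + 1) (by omega)
  have hε₁ : ε₁ ≤ 1 / 16 := by
    refine e2.trans ?_
    rw [div_le_iff₀ (by positivity)]
    push_cast; linarith
  have hε₁0 : 0 < ε₁ := lt_of_lt_of_le (by positivity) e1
  obtain ⟨ρ₁, hρ₁, hst₁'⟩ := hst₁.improve hβ hζ hε₁ (fun k => by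
      have : 1 * (β ^ N - 1) * β ^ k = β ^ (k + N) - β ^ k := by
        rw [zpow_add₀ hβ0.ne', zpow_natCast]; ring
      rw [this]; exact (hint _).sub (hint _)) (fun k => by
      have : 1 * (β ^ (-(N : ℤ)) - 1) * β ^ (-k) = β ^ (-(k + N)) - β ^ (-k) := by
        rw [neg_add, zpow_add₀ hβ0.ne']; ring
      rw [this]; exact (hint _).sub (hint _))
  set γ := (1 / 2 - ρ₁) / 16 with hγ
  have hγ0 : 0 < γ := by rw [hγ]; linarith
  obtain ⟨L₂, hL₂, hL₂'⟩ := exists_zpow_neg_le hβ hγ0 L₁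
  have hL₂2 : 2 ≤ β ^ L₂ := hL₀'.trans (pow_le_pow_right₀ hβ.le (by omega))
  have hst₂ : St β ζ _ _ _ L₂ ε₁ ρ₁ _ :=
    { hst₁' with x_le := hst₁'.x_le.trans (pow_le_pow_right₀ hβ.le hL₂) }
  set δ := min γ (1 / 10 ^ 30) with hδ
  have hδ0 : 0 < δ := by positivity
  obtain ⟨K, hK⟩ := exists_nat_ge (max (19 * (L₂ : ℝ) ^ 2 + 1) (28 * L₂ / δ))
  have hK1 : 19 * (L₂ : ℝ) ^ 2 + 1 ≤ K := (le_max_left _ _).trans hK
  have hK2 : 28 * L₂ / δ ≤ K := (le_max_right _ _).trans hK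
  have hK0 : (0 : ℝ) < K := lt_of_lt_of_le (by positivity) hK1
  obtain ⟨N', L₃, ε₃, hL₃, f1, f2, f3, hst₃⟩ := hst₂.step2 hβ hζ hL₂2 K (by exact_mod_cast hK0)
  have hε₃0 : 0 < ε₃ := lt_of_lt_of_le (by positivity) f1
  have hε₃ : ε₃ ≤ δ := by
    refine f2.trans ?_
    rw [div_le_iff₀ hδ0] at hK2
    rw [div_le_iff₀ hK0]
    have : (0 : ℝ) ≤ L₂ := Nat.cast_nonneg _
    nlinarith
  have hεL₃ : ε₃ * L₃ ≤ 1 := by
    refine f3.trans ?_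
    have : 19 * (L₂ : ℝ) ^ 2 / K ≤ 1 := by rw [div_le_one hK0]; linarith
    nlinarith
  have hγ₃ : ε₃ ≤ γ := hε₃.trans (min_le_left _ _)
  have hL₃γ : β ^ (-(L₃ : ℤ)) ≤ γ := (zpow_le_zpow_right₀ hβ.le (by omega)).trans hL₂'
  obtain ⟨x', y', z', L', ε', ρ', S', hst', h0', h1, h2, h3, h4, -⟩ :=
    iter1 (ρs := ρ₁ + 8 * γ) hβ hζ hst₃ hε₃0 (hε₃.trans (min_le_right _ _)) hεL₃
      (hL₂2.trans (pow_le_pow_right₀ hβ.le (by omega))) (by linarith)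
  have hε₃' : ε₃ ≤ 1 / 10 ^ 30 := hε₃.trans (min_le_right _ _)
  have hε' : ε' ≤ 1 / 10 ^ 30 := by
    have f4 : ε' ≤ 28 * ε₃ ^ 2 := h1.trans (mul_le_of_le_one_right (by positivity) hεL₃)
    have : ε₃ ≤ 1 / 1000 := hε₃'.trans (by norm_num)
    nlinarith
  have hlog : 0 < -Real.log ε' := by
    have := Real.log_neg h0' (hε'.trans_lt (by norm_num))
    linarith
  have hS' : 0 ≤ S' := by simpa using hst'.cost ∅ (by simp)
  have hCb := one_le_Cb hβ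
  refine ⟨ρ₁ + 8 * γ, by rw [hγ]; linarith, fun s η hs hη => ?_⟩
  refine inv_all (s := (S' + (4 * Cb β + 44)) / (-Real.log ε')) hβ hζ ?_ (by positivity) s η hs hη
  refine ⟨x', y', z', L', ε', ρ', S', hst', h0', hε', h2, h3, h4, ?_⟩
  rw [div_mul_cancel₀ _ hlog.ne']

end Crest.Agent.R104
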