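import Crest.Prelude.Def_BernoulliConv

/-! Algebraic facts about quartic Salem numbers. -/

set_option autoImplicit false

namespace Crest.Agent.R104

open Polynomial Crest.AnalysisR
open scoped ComplexConjugate

lemma salem_minpoly {β : ℝ} (hβ : IsQuarticSalem β) :
    minpoly ℚ β = (minpoly ℤ β).map (algebraMap ℤ ℚ) :=
  minpoly.isIntegrallyClosed_eq_field_fractions' ℚ hβ.2.1

lemma salem_inv_integral {β : ℝ} (hβ : IsQuarticSalem β) : IsIntegral ℤ β⁻¹ := by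
  refine ⟨minpoly ℤ β, minpoly.monic hβ.2.1, ?_⟩
  have h := hβ.2.2.2.1
  rw [salem_minpoly hβ, aeval_map_algebraMap] at h
  exact h

lemma salem_zpow_integral {β : ℝ} (hβ : IsQuarticSalem β) (k : ℤ) : IsIntegral ℤ (β ^ k) := by
  rcases Int.eq_nat_or_neg k with ⟨n, rfl | rfl⟩
  · rw [zpow_natCast]; exact hβ.2.1.pow n
  · rw [zpow_neg, zpow_natCast, ← inv_pow]; exact (salem_inv_integral hβ).pow n

lemma salem_exists_zeta {β : ℝ} (hβ : IsQuarticSalem β) :
    ∃ (ζ : ℂ) (A B : ℤ), ‖ζ‖ = 1 ∧ (β + β⁻¹) + 2 * ζ.re = A ∧ (β + β⁻¹) * (2 * ζ.re) = B := by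
  classical
  obtain ⟨h1, hint, hdeg, hinv, hroots⟩ := hβ
  have hβ' : IsQuarticSalem β := ⟨h1, hint, hdeg, hinv, hroots⟩
  have hβ0 : 0 < β := by linarith
  have hintQ : IsIntegral ℚ β := hint.tower_top
  have hirr : Irreducible (minpoly ℚ β) := minpoly.irreducible hintQ
  have hmon : (minpoly ℚ β).Monic := minpoly.monic hintQ
  set P : ℂ[X] := (minpoly ℚ β).map (algebraMap ℚ ℂ) with hP
  have hPmon : P.Monic := hmon.map _
  have hPsplit : P.Splits := IsAlgClosed.splits P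
  have hPcard : P.roots.card = 4 := by
    rw [← hPsplit.natDegree_eq_card_roots, hP, natDegree_map, hdeg]
  have hPnodup : P.roots.Nodup := nodup_roots (hirr.separable.map)
  have hmem : ∀ z : ℂ, z ∈ P.roots ↔ aeval z (minpoly ℚ β) = 0 := by
    intro z
    rw [mem_roots hPmon.ne_zero, IsRoot, hP, eval_map_algebraMap]
  have hreal : ∀ t : ℝ, aeval t (minpoly ℚ β) = 0 → (t : ℂ) ∈ P.roots := by
    intro t ht
    rw [hmem]
    have := aeval_algebraMap_apply ℂ t (minpoly ℚ β)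
    rw [ht, map_zero] at this
    exact this
  have hb1 : (β : ℂ) ∈ P.roots := hreal β (minpoly.aeval ℚ β)
  have hb2 : ((β⁻¹ : ℝ) : ℂ) ∈ P.roots := hreal _ hinv
  have hlt : β⁻¹ < 1 := inv_lt_one_of_one_lt₀ h1
  have hne : ((β⁻¹ : ℝ) : ℂ) ≠ β := by
    intro h
    have : β⁻¹ = β := by exact_mod_cast h
    linarith
  obtain ⟨s1, hs1⟩ := Multiset.exists_cons_of_mem hb1
  have hb2' : ((β⁻¹ : ℝ) : ℂ) ∈ s1 := by
    rw [hs1, Multiset.mem_cons] at hb2
    exact hb2.resolve_left hne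
  obtain ⟨s2, hs2⟩ := Multiset.exists_cons_of_mem hb2'
  have hc2 : s2.card = 2 := by
    rw [hs1, hs2, Multiset.card_cons, Multiset.card_cons] at hPcard
    omega
  obtain ⟨ζ, w, hs3⟩ := Multiset.card_eq_two.1 hc2
  have hR : P.roots = (β : ℂ) ::ₘ ((β⁻¹ : ℝ) : ℂ) ::ₘ ζ ::ₘ {w} := by rw [hs1, hs2, hs3]; rfl
  have hnd := hPnodup
  rw [hR] at hnd
  simp only [Multiset.nodup_cons, Multiset.mem_cons, Multiset.mem_singleton, not_or] at hnd
  obtain ⟨⟨-, n1, n2⟩, ⟨n3, n4⟩, n5, -⟩ := hnd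
  have hζr : aeval ζ (minpoly ℚ β) = 0 := by rw [← hmem, hR]; simp
  have hζ : ‖ζ‖ = 1 := by
    rcases hroots ζ hζr with h | h | h
    · exact absurd h.symm n1
    · exact absurd h.symm n3
    · exact h
  have hconj : conj ζ ∈ P.roots := by
    rw [hmem]
    have := aeval_algHom_apply ((Complex.conjAe.toAlgHom).restrictScalars ℚ) ζ (minpoly ℚ β)
    rw [hζr, map_zero] at this
    exact this
  have hnoroot : ∀ t : ℚ, aeval (t : ℂ) (minpoly ℚ β) ≠ 0 := by
    intro t ht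
    have h2 := aeval_algebraMap_apply ℂ t (minpoly ℚ β)
    have h3 : algebraMap ℚ ℂ t = (t : ℂ) := rfl
    rw [h3, ht] at h2
    have h4 : (minpoly ℚ β).IsRoot t := by
      have := (map_eq_zero_iff _ (algebraMap ℚ ℂ).injective).1 h2.symm
      simpa [IsRoot] using this
    have h5 := degree_eq_one_of_irreducible_of_root hirr h4
    rw [degree_eq_natDegree hmon.ne_zero, hdeg] at h5
    exact absurd h5 (by decide)
  have hw : w = conj ζ := by
    rw [hR] at hconj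
    simp only [Multiset.mem_cons, Multiset.mem_singleton] at hconj
    have hn : ‖conj ζ‖ = 1 := by rw [Complex.norm_conj, hζ]
    rcases hconj with h | h | h | h
    · rw [h, Complex.norm_real, Real.norm_eq_abs, abs_of_pos hβ0] at hn; linarith
    · rw [h, Complex.norm_real, Real.norm_eq_abs, abs_of_pos (by positivity)] at hn; linarith
    · exfalso
      obtain ⟨t, rfl⟩ := Complex.conj_eq_iff_real.1 h
      rw [Complex.norm_real, Real.norm_eq_abs] at hζ
      rcases (abs_eq zero_le_one).1 hζ with h | h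
      · exact hnoroot 1 (by simpa [h] using hζr)
      · exact hnoroot (-1) (by simpa [h] using hζr)
    · exact h.symm
  have hprod := hPsplit.eq_prod_roots_of_monic hPmon
  rw [hR, hw] at hprod
  simp only [Multiset.map_cons, Multiset.map_singleton, Multiset.prod_cons,
    Multiset.prod_singleton] at hprod
  have hzz : ζ * conj ζ = 1 := by rw [Complex.mul_conj, Complex.normSq_eq_norm_sq, hζ]; simp
  have hbb : (β : ℂ) * ((β⁻¹ : ℝ) : ℂ) = 1 := by
    rw [← Complex.ofReal_mul, mul_inv_cancel₀ hβ0.ne', Complex.ofReal_one]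
  set p : ℂ := β + ((β⁻¹ : ℝ) : ℂ) with hp
  set q : ℂ := ζ + conj ζ with hq
  have hexp : P = X ^ 4 - C (p + q) * X ^ 3 + C (2 + p * q) * X ^ 2 - C (p + q) * X + 1 := by
    have e1 : (X - C (β : ℂ)) * (X - C ((β⁻¹ : ℝ) : ℂ)) = X ^ 2 - C p * X + 1 := by
      rw [hp, map_add, ← C_1, ← hbb, map_mul]; ring
    have e2 : (X - C ζ) * (X - C (conj ζ)) = X ^ 2 - C q * X + 1 := by
      rw [hq, map_add, ← C_1, ← hzz, map_mul]; ring
    rw [hprod, ← mul_assoc, e1, e2]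
    simp only [map_add, map_mul, map_ofNat]
    ring
  have hcoeff : ∀ n, P.coeff n = (((minpoly ℤ β).coeff n : ℤ) : ℂ) := by
    intro n
    rw [hP, salem_minpoly hβ', coeff_map, coeff_map]
    simp
  have c3 := hcoeff 3
  have c2 := hcoeff 2
  rw [hexp] at c3 c2
  simp only [coeff_add, coeff_sub, coeff_C_mul, coeff_X_pow, coeff_X, coeff_one] at c3 c2
  norm_num at c3 c2
  have hq' : q = ((2 * ζ.re : ℝ) : ℂ) := by rw [hq, Complex.add_conj]
  have hp' : p = ((β + β⁻¹ : ℝ) : ℂ) := by rw [hp]; push_cast; ring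
  refine ⟨ζ, -(minpoly ℤ β).coeff 3, (minpoly ℤ β).coeff 2 - 2, hζ, ?_, ?_⟩
  · have : ((β + β⁻¹ + 2 * ζ.re : ℝ) : ℂ) = (((-(minpoly ℤ β).coeff 3 : ℤ) : ℝ) : ℂ) := by
      rw [Complex.ofReal_add, ← hp', ← hq']
      push_cast
      linear_combination -c3
    exact_mod_cast this
  · have : (((β + β⁻¹) * (2 * ζ.re) : ℝ) : ℂ) = ((((minpoly ℤ β).coeff 2 - 2 : ℤ) : ℝ) : ℂ) := by
      rw [Complex.ofReal_mul, ← hp', ← hq']
      push_cast
      linear_combination c2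
    exact_mod_cast this

lemma salem_lat {β : ℝ} (hβ0 : 0 < β) {ζ : ℂ} {A B : ℤ} (hζ : ‖ζ‖ = 1)
    (hA : (β + β⁻¹) + 2 * ζ.re = A) (hB : (β + β⁻¹) * (2 * ζ.re) = B) (k : ℤ) :
    ∃ m : ℤ, β ^ k + β ^ (-k) + 2 * (ζ ^ k).re = m := by
  have hζ0 : ζ ≠ 0 := by intro h0; rw [h0, norm_zero] at hζ; norm_num at hζ
  have hinv : ζ⁻¹ = conj ζ := by rw [Complex.inv_eq_conj hζ]
  set p := β + β⁻¹ with hp
  set q := 2 * ζ.re with hq
  let a : ℤ → ℝ := fun k => β ^ k + β ^ (-k)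
  let b : ℤ → ℝ := fun k => 2 * (ζ ^ k).re
  have ha : ∀ k, a (k + 1) = p * a k - a (k - 1) := by
    intro k
    simp only [a, hp, neg_add, neg_sub, zpow_add₀ hβ0.ne', zpow_sub₀ hβ0.ne', zpow_neg, zpow_one]
    field_simp; ring
  have hb : ∀ k, b (k + 1) = q * b k - b (k - 1) := by
    intro k
    have h1 : ζ ^ (k + 1) = (q : ℂ) * ζ ^ k - ζ ^ (k - 1) := by
      rw [hq, ← Complex.add_conj, ← hinv, zpow_add₀ hζ0, zpow_sub₀ hζ0, zpow_one]
      field_simp; ring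
    simp only [b]
    rw [h1, Complex.sub_re, Complex.re_ofReal_mul]; ring
  have hp2 : p ^ 2 = A * p - B := by rw [← hA, ← hB]; ring
  have hq2 : q ^ 2 = A * q - B := by rw [← hA, ← hB]; ring
  have key : ∀ n : ℕ, (∃ m : ℤ, a n + b n = m) ∧ (∃ m : ℤ, p * a n + q * b n = m) ∧
      (∃ m : ℤ, a (n + 1) + b (n + 1) = m) ∧ (∃ m : ℤ, p * a (n + 1) + q * b (n + 1) = m) := by
    intro n
    induction n with
    | zero =>
      have a0 : a 0 = 2 := by simp [a]; norm_num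
      have b0 : b 0 = 2 := by simp [b]
      have a1 : a 1 = p := by simp [a, hp]
      have b1 : b 1 = q := by simp [b, hq]
      simp only [CharP.cast_eq_zero, zero_add, a0, b0, a1, b1]
      refine ⟨⟨4, by norm_num⟩, ⟨2 * A, ?_⟩, ⟨A, hA⟩, ⟨A * A - 2 * B, ?_⟩⟩
      · push_cast; linarith
      · push_cast; linear_combination hp2 + hq2 + (A : ℝ) * hA
    | succ n ih =>
      obtain ⟨⟨m1, h1⟩, ⟨m2, h2⟩, ⟨m3, h3⟩, ⟨m4, h4⟩⟩ := ih
      push_cast
      have e1 := ha (n + 1)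
      have e2 := hb (n + 1)
      rw [add_sub_cancel_right] at e1 e2
      refine ⟨⟨m3, h3⟩, ⟨m4, h4⟩, ⟨m4 - m1, ?_⟩, ⟨A * m4 - B * m3 - m2, ?_⟩⟩
      · rw [e1, e2]; push_cast; linarith
      · rw [e1, e2]; push_cast
        linear_combination a (n + 1) * hp2 + b (n + 1) * hq2 + (A : ℝ) * h4 - (B : ℝ) * h3 - h2
  rcases Int.eq_nat_or_neg k with ⟨n, rfl | rfl⟩
  · exact (key n).1
  · obtain ⟨m, hm⟩ := (key n).1
    refine ⟨m, ?_⟩
    have : (ζ ^ (-(n : ℤ))).re = (ζ ^ (n : ℤ)).re := by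
      rw [zpow_neg, ← inv_zpow, hinv, ← map_zpow₀, Complex.conj_re]
    rw [this, neg_neg, add_comm (β ^ (-(n : ℤ)))]
    exact hm

end Crest.Agent.R104
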