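import Crest.Agent.R104.Basic

/-! The states of the iteration and the basic step `θ ↦ θ (β ^ N - 1)`. -/

set_option autoImplicit false

namespace Crest.Agent.R104

open Real Finset

/-- A lattice point `(x, y, z)` together with quantitative bounds. -/
structure St (β : ℝ) (ζ : ℂ) (x y : ℝ) (z : ℂ) (L : ℕ) (ε ρ S : ℝ) : Prop where
  lat : ∀ k : ℤ, ∃ m : ℤ, x * β ^ k + y * β ^ (-k) + 2 * (z * ζ ^ k).re = m
  x_ge : 1 ≤ x
  x_le : x ≤ β ^ L
  y_le : |y| ≤ 1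
  z_le : ‖z‖ ≤ ε
  sep_u : ∀ k : ℤ, nd (x * β ^ k) ≤ ρ
  sep_v : ∀ k : ℤ, nd (y * β ^ (-k)) ≤ ρ
  cost : ∀ A : Finset ℤ, (∀ k ∈ A, k ≤ 0) → ∑ k ∈ A, nd (x * β ^ k) ^ 2 ≤ S

lemma abs_w_le {ζ z : ℂ} (hζ : ‖ζ‖ = 1) {ε : ℝ} (hz : ‖z‖ ≤ ε) (k : ℤ) :
    |2 * (z * ζ ^ k).re| ≤ 2 * ε := by
  rw [abs_mul, abs_two]
  have h := Complex.abs_re_le_norm (z * ζ ^ k)
  rw [norm_mul, norm_zpow, hζ, one_zpow, mul_one] at h
  linarith

namespace St

variable {β : ℝ} {ζ : ℂ} {x y : ℝ} {z : ℂ} {L : ℕ} {ε ρ S : ℝ}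

lemma eps_nonneg (h : St β ζ x y z L ε ρ S) : 0 ≤ ε := (norm_nonneg _).trans h.z_le

lemma abs_v_le (hβ : 1 < β) (h : St β ζ x y z L ε ρ S) (k : ℤ) : |y * β ^ (-k)| ≤ β ^ (-k) := by
  have : 0 < β ^ (-k) := by positivity
  rw [abs_mul, abs_of_pos this]
  exact mul_le_of_le_one_left this.le h.y_le

lemma abs_u_le (hβ : 1 < β) (h : St β ζ x y z L ε ρ S) (k : ℤ) : |x * β ^ k| ≤ β ^ (L + k) := by
  have h0 : 0 < β ^ k := by positivity
  have h1 : 0 < x := by linarith [h.x_ge]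
  rw [abs_of_pos (mul_pos h1 h0), zpow_add₀ (by positivity), zpow_natCast]
  exact mul_le_mul_of_nonneg_right h.x_le h0.le

lemma nd_u_le (hβ : 1 < β) (hζ : ‖ζ‖ = 1) (h : St β ζ x y z L ε ρ S) (k : ℤ) :
    nd (x * β ^ k) ≤ β ^ (-k) + 2 * ε := by
  obtain ⟨m, hm⟩ := h.lat k
  have h1 := nd_le_of_int hm
  have h2 := nd_le_abs (y * β ^ (-k))
  have h3 := h.abs_v_le hβ k
  have h4 := abs_w_le hζ h.z_le k
  linarith

lemma sum_tail_le (hβ : 1 < β) (hζ : ‖ζ‖ = 1) (h : St β ζ x y z L ε ρ S) (a : ℕ) (M : ℕ)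
    (A : Finset ℤ) (hA : ∀ k ∈ A, (a : ℤ) < k ∧ k ≤ M) :
    ∑ k ∈ A, nd (x * β ^ k) ^ 2 ≤ 2 * Cb β * β ^ (-(a : ℤ)) + 8 * ε ^ 2 * M := by
  have hβ0 : 0 < β := by linarith
  have h1 : ∀ k ∈ A, nd (x * β ^ k) ^ 2 ≤ 2 * β ^ (-(a : ℤ)) * β ^ ((a : ℤ) - k) + 8 * ε ^ 2 := by
    intro k hk
    have h2 := h.nd_u_le hβ hζ k
    have h3 : 0 < β ^ (-k) := by positivity
    have h4 : β ^ (-k) ≤ 1 := zpow_le_one_of_nonpos₀ hβ.le (by have := (hA k hk).1; omega)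
    have h5 : β ^ (-(a : ℤ)) * β ^ ((a : ℤ) - k) = β ^ (-k) := by
      rw [← zpow_add₀ hβ0.ne']; congr 1; ring
    have h6 := pow_le_pow_left₀ (nd_nonneg _) h2 2
    rw [mul_assoc, h5]
    nlinarith [sq_nonneg (β ^ (-k) - 2 * ε)]
  have hcard : (A.card : ℝ) ≤ M := by
    have : A ⊆ Ioc (0 : ℤ) M := by
      intro k hk
      have := hA k hk
      rw [Finset.mem_Ioc]; omega
    have h2 := Finset.card_le_card this
    simp only [Int.card_Ioc, sub_zero, Int.toNat_natCast] at h2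
    exact_mod_cast h2
  calc _ ≤ ∑ k ∈ A, (2 * β ^ (-(a : ℤ)) * β ^ ((a : ℤ) - k) + 8 * ε ^ 2) := Finset.sum_le_sum h1
    _ = 2 * β ^ (-(a : ℤ)) * ∑ k ∈ A, β ^ ((a : ℤ) - k) + A.card * (8 * ε ^ 2) := by
        rw [Finset.sum_add_distrib, Finset.mul_sum, Finset.sum_const, nsmul_eq_mul]
    _ ≤ 2 * β ^ (-(a : ℤ)) * Cb β + M * (8 * ε ^ 2) := by
        gcongr
        exact geom_ge hβ A a fun k hk => (hA k hk).1.le
    _ = _ := by ring

lemma cost_ext (hβ : 1 < β) (hζ : ‖ζ‖ = 1) (h : St β ζ x y z L ε ρ S) (M : ℕ)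
    (A : Finset ℤ) (hA : ∀ k ∈ A, k ≤ M) :
    ∑ k ∈ A, nd (x * β ^ k) ^ 2 ≤ S + 2 * Cb β + 8 * ε ^ 2 * M := by
  rw [← Finset.sum_filter_add_sum_filter_not A (fun k => k ≤ 0)]
  have h1 := h.cost (A.filter (fun k => k ≤ 0)) (fun k hk => (Finset.mem_filter.1 hk).2)
  have h2 := h.sum_tail_le hβ hζ 0 M (A.filter (fun k => ¬ k ≤ 0)) (fun k hk => by
    have h3 := Finset.mem_filter.1 hk
    exact ⟨by simpa using h3.2, hA k h3.1⟩)
  simp only [CharP.cast_eq_zero, neg_zero, zpow_zero, mul_one] at h2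
  linarith

theorem step (hβ : 1 < β) (hζ : ‖ζ‖ = 1) (h : St β ζ x y z L ε ρ S) (N : ℕ) (hN : 3 * L ≤ N)
    (hL : 2 ≤ β ^ L) (δ : ℝ) (hδ : ‖ζ ^ N - 1‖ ≤ δ) :
    St β ζ (x * (β ^ N - 1)) (y * (β ^ (-(N : ℤ)) - 1)) (z * (ζ ^ N - 1)) (L + N) (ε * δ)
      (ρ + β ^ (-(L : ℤ)) + 2 * (ε * δ)) (2 * S + 4 * Cb β + 8 * ε ^ 2 * N + 4 * ε * L) := by
  have hβ0 : 0 < β := by linarith
  have hζ0 : ζ ≠ 0 := by intro h0; rw [h0, norm_zero] at hζ; norm_num at hζ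
  have hε := h.eps_nonneg
  have hδ0 : 0 ≤ δ := (norm_nonneg _).trans hδ
  have hN2 : 2 ≤ β ^ N := hL.trans (pow_le_pow_right₀ hβ.le (by omega))
  have hu : ∀ k : ℤ, x * (β ^ N - 1) * β ^ k = x * β ^ (k + N) - x * β ^ k := by
    intro k; rw [zpow_add₀ hβ0.ne', zpow_natCast]; ring
  have hv : ∀ k : ℤ, y * (β ^ (-(N : ℤ)) - 1) * β ^ (-k) = y * β ^ (-(k + N)) - y * β ^ (-k) := by
    intro k; rw [neg_add, zpow_add₀ hβ0.ne']; ring
  have hw : ∀ k : ℤ, z * (ζ ^ N - 1) * ζ ^ k = z * ζ ^ (k + N) - z * ζ ^ k := by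
    intro k; rw [zpow_add₀ hζ0, zpow_natCast]; ring
  have hz : ‖z * (ζ ^ N - 1)‖ ≤ ε * δ := by
    rw [norm_mul]; exact mul_le_mul h.z_le hδ (norm_nonneg _) hε
  have hlat : ∀ k : ℤ, ∃ m : ℤ, x * (β ^ N - 1) * β ^ k + y * (β ^ (-(N : ℤ)) - 1) * β ^ (-k) +
      2 * (z * (ζ ^ N - 1) * ζ ^ k).re = m := by
    intro k
    obtain ⟨m1, hm1⟩ := h.lat (k + N)
    obtain ⟨m2, hm2⟩ := h.lat k
    refine ⟨m1 - m2, ?_⟩
    rw [hu, hv, hw, Complex.sub_re]; push_cast; linarith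
  have hsmall_u : ∀ k : ℤ, k ≤ -2 * L → |x * β ^ k| ≤ β ^ (-(L : ℤ)) := fun k hk =>
    (h.abs_u_le hβ k).trans (zpow_le_zpow_right₀ hβ.le (by omega))
  have hsmall_v : ∀ k : ℤ, -2 * L < k → |y * β ^ (-(k + N))| ≤ β ^ (-(L : ℤ)) := fun k hk =>
    (h.abs_v_le hβ _).trans (zpow_le_zpow_right₀ hβ.le (by omega))
  have hU : ∀ k : ℤ, k ≤ -2 * L → nd (x * (β ^ N - 1) * β ^ k) ≤ ρ + β ^ (-(L : ℤ)) := by
    intro k hk
    rw [hu]
    have := nd_sub_le (x * β ^ (k + N)) (x * β ^ k)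
    linarith [h.sep_u (k + N), nd_le_abs (x * β ^ k), hsmall_u k hk]
  have hV : ∀ k : ℤ, -2 * L < k →
      nd (y * (β ^ (-(N : ℤ)) - 1) * β ^ (-k)) ≤ ρ + β ^ (-(L : ℤ)) := by
    intro k hk
    rw [hv]
    have := nd_sub_le (y * β ^ (-(k + N))) (y * β ^ (-k))
    linarith [h.sep_v k, nd_le_abs (y * β ^ (-(k + N))), hsmall_v k hk]
  have hεδ : 0 ≤ ε * δ := mul_nonneg hε hδ0
  refine ⟨hlat, ?_, ?_, ?_, hz, ?_, ?_, ?_⟩
  · nlinarith [h.x_ge]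
  · rw [pow_add]
    exact mul_le_mul h.x_le (by linarith) (by linarith) (by positivity)
  · rw [abs_mul]
    have h1 : 0 < β ^ (-(N : ℤ)) := by positivity
    have h2 : β ^ (-(N : ℤ)) ≤ 1 := zpow_le_one_of_nonpos₀ hβ.le (by omega)
    have h3 : |β ^ (-(N : ℤ)) - 1| ≤ 1 := by rw [abs_le]; constructor <;> linarith
    exact mul_le_one₀ h.y_le (abs_nonneg _) h3
  · intro k
    by_cases hk : k ≤ -2 * L
    · linarith [hU k hk]
    · obtain ⟨m, hm⟩ := hlat k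
      linarith [nd_le_of_int hm, hV k (by omega), abs_w_le hζ hz k]
  · intro k
    by_cases hk : k ≤ -2 * L
    · obtain ⟨m, hm⟩ := hlat k
      rw [add_comm (x * (β ^ N - 1) * β ^ k)] at hm
      linarith [nd_le_of_int hm, hU k hk, abs_w_le hζ hz k]
    · linarith [hV k (by omega)]
  · intro A hA
    rw [← Finset.sum_filter_add_sum_filter_not A (fun k => k ≤ -2 * L)]
    set A1 := A.filter (fun k : ℤ => k ≤ -2 * L) with hA1
    set A2 := A.filter (fun k : ℤ => ¬ k ≤ -2 * L) with hA2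
    have hA1' : ∀ k ∈ A1, k ≤ -2 * L := fun k hk => (Finset.mem_filter.1 hk).2
    have hA2' : ∀ k ∈ A2, -2 * L < k ∧ k ≤ 0 := fun k hk =>
      ⟨not_le.1 (Finset.mem_filter.1 hk).2, hA k (Finset.mem_filter.1 hk).1⟩
    have e1 : ∑ k ∈ A1, nd (x * (β ^ N - 1) * β ^ k) ^ 2 ≤
        (S + 2 * Cb β + 8 * ε ^ 2 * N) + Cb β := by
      calc _ ≤ ∑ k ∈ A1, (nd (x * β ^ (k + N)) ^ 2 + β ^ (k - (-(L : ℤ)))) := by
            refine Finset.sum_le_sum fun k _ => nd_sq_le ?_ (by positivity)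
            rw [hu]
            have h1 := nd_sub_le (x * β ^ (k + N)) (x * β ^ k)
            have h2 := h.abs_u_le hβ k
            rw [sub_neg_eq_add, add_comm k (L : ℤ)]
            linarith [nd_le_abs (x * β ^ k)]
        _ = ∑ k ∈ A1.image (fun k => k + (N : ℤ)), nd (x * β ^ k) ^ 2 +
              ∑ k ∈ A1, β ^ (k - (-(L : ℤ))) := by
            rw [Finset.sum_add_distrib, Finset.sum_image (fun _ _ _ _ h => by simpa using h)]
        _ ≤ _ := by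
            gcongr
            · refine h.cost_ext hβ hζ N _ fun k hk => ?_
              obtain ⟨l, hl, rfl⟩ := Finset.mem_image.1 hk
              have := hA1' l hl
              omega
            · exact geom_le hβ A1 _ fun k hk => by have := hA1' k hk; omega
    have hcard : (A2.card : ℝ) ≤ 2 * L := by
      have : A2 ⊆ Ioc (-2 * L : ℤ) 0 := fun k hk => Finset.mem_Ioc.2 (hA2' k hk)
      have h2 := Finset.card_le_card this
      rw [Int.card_Ioc] at h2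
      have h3 : A2.card ≤ 2 * L := by omega
      exact_mod_cast h3
    have e2 : ∑ k ∈ A2, nd (x * (β ^ N - 1) * β ^ k) ^ 2 ≤ S + Cb β + 4 * ε * L := by
      calc _ ≤ ∑ k ∈ A2, (nd (x * β ^ k) ^ 2 + (β ^ (-(N : ℤ) - k) + 2 * ε)) := by
            refine Finset.sum_le_sum fun k _ => nd_sq_le ?_ (by positivity)
            rw [hu]
            have h1 := nd_sub_le (x * β ^ (k + N)) (x * β ^ k)
            have h2 := h.nd_u_le hβ hζ (k + N)
            have h3 : -(k + (N : ℤ)) = -(N : ℤ) - k := by ring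
            rw [h3] at h2
            linarith
        _ = ∑ k ∈ A2, nd (x * β ^ k) ^ 2 + ∑ k ∈ A2, β ^ (-(N : ℤ) - k) + A2.card * (2 * ε) := by
            rw [Finset.sum_add_distrib, Finset.sum_add_distrib, Finset.sum_const, nsmul_eq_mul,
              add_assoc]
        _ ≤ S + Cb β + (2 * L) * (2 * ε) := by
            gcongr
            · exact h.cost A2 fun k hk => (hA2' k hk).2
            · exact geom_ge hβ A2 _ fun k hk => by have := (hA2' k hk).1; omega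
        _ = _ := by ring
    linarith

end St

lemma norm_pow_sub_one_le {w : ℂ} (hw : ‖w‖ = 1) (q : ℕ) : ‖w ^ q - 1‖ ≤ q * ‖w - 1‖ := by
  induction q with
  | zero => simp
  | succ q ih =>
    have : w ^ (q + 1) - 1 = w ^ q * (w - 1) + (w ^ q - 1) := by ring
    rw [this]
    refine (norm_add_le _ _).trans ?_
    rw [norm_mul, norm_pow, hw, one_pow, one_mul]
    push_cast; linarith

/-- Dirichlet's theorem on the unit circle -/
lemma exists_pow_near_one {ζ : ℂ} (hζ : ‖ζ‖ = 1) (K : ℕ) (hK : 0 < K) :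
    ∃ n : ℕ, 0 < n ∧ n ≤ K ∧ ‖ζ ^ n - 1‖ ≤ 7 / K := by
  obtain ⟨θ, hθ⟩ := (Complex.norm_eq_one_iff ζ).1 hζ
  obtain ⟨j, k, hk0, hkK, hk⟩ := Real.exists_int_int_abs_mul_sub_le (θ / (2 * π)) hK
  refine ⟨k.toNat, by omega, by omega, ?_⟩
  have hpi := Real.pi_pos
  have h1 : ζ ^ k.toNat = Complex.exp (Complex.I * ((2 * π * (k * (θ / (2 * π)) - j) : ℝ) : ℂ)) := by
    rw [← hθ, ← Complex.exp_nat_mul]
    have h2 : ((k.toNat : ℕ) : ℂ) = (k : ℂ) := by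
      have : ((k.toNat : ℕ) : ℤ) = k := Int.toNat_of_nonneg hk0.le
      exact_mod_cast congrArg (fun t : ℤ => (t : ℂ)) this
    have h3 : (2 * π * (k * (θ / (2 * π)) - j) : ℝ) = k * θ - j * (2 * π) := by field_simp
    rw [h2, h3, Complex.exp_eq_exp_iff_exists_int]
    exact ⟨j, by push_cast; ring⟩
  rw [h1]
  refine (Real.norm_exp_I_mul_ofReal_sub_one_le).trans ?_
  rw [Real.norm_eq_abs, abs_mul, abs_of_pos (by positivity : (0 : ℝ) < 2 * π)]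
  have hK' : (0 : ℝ) < K := by exact_mod_cast hK
  have h4 : 1 / ((K : ℝ) + 1) ≤ 1 / K := by gcongr; linarith
  have h5 : 2 * π ≤ 7 := by linarith [Real.pi_lt_d2]
  calc 2 * π * |↑k * (θ / (2 * π)) - ↑j| ≤ 7 * (1 / K) := by
        gcongr; exact hk.trans h4
    _ = 7 / K := by ring

theorem St.step2 {β : ℝ} {ζ : ℂ} {x y : ℝ} {z : ℂ} {L : ℕ} {ε ρ S : ℝ}
    (hβ : 1 < β) (hζ : ‖ζ‖ = 1) (h : St β ζ x y z L ε ρ S) (hL : 2 ≤ β ^ L)
    (K : ℕ) (hK : 0 < K) :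
    ∃ (N L' : ℕ) (ε' : ℝ), 4 * L ≤ L' ∧ 7 * ε / K ≤ ε' ∧
      ε' ≤ 28 * ε * L / K ∧ ε' * L' ≤ 7 * ε * (1 + 19 * L ^ 2 / K) ∧
      St β ζ (x * (β ^ N - 1)) (y * (β ^ (-(N : ℤ)) - 1)) (z * (ζ ^ N - 1)) L' ε'
        (ρ + β ^ (-(L : ℤ)) + 2 * ε')
        (2 * S + 4 * Cb β + 8 * ε ^ 2 * (K + 3 * L) + 4 * ε * L) := by
  obtain ⟨n, hn0, hnK, hn⟩ := exists_pow_near_one hζ K hK
  have hL1 : 1 ≤ L := by
    rcases Nat.eq_zero_or_pos L with h0 | h0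
    · rw [h0, pow_zero] at hL; norm_num at hL
    · exact h0
  set q := 3 * L / n + 1 with hq
  have hq1 : 3 * L ≤ n * q := by
    have := Nat.lt_mul_div_succ (3 * L) hn0
    exact this.le
  have hq2 : n * q ≤ n + 3 * L := by
    have := Nat.mul_div_le (3 * L) n
    rw [hq, mul_add]; omega
  have hq3 : q ≤ 1 + 3 * L := by
    have := Nat.div_le_self (3 * L) n
    omega
  have hq4 : 1 ≤ q := Nat.le_add_left 1 _
  have hδ : ‖ζ ^ (n * q) - 1‖ ≤ q * (7 / K) := by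
    rw [pow_mul]
    refine (norm_pow_sub_one_le (by rw [norm_pow, hζ, one_pow]) q).trans ?_
    gcongr
  have hst := h.step hβ hζ (n * q) hq1 hL _ hδ
  have hε := h.eps_nonneg
  have hK' : (0 : ℝ) < K := by exact_mod_cast hK
  have hL1' : (1 : ℝ) ≤ L := by exact_mod_cast hL1
  have hq3' : (q : ℝ) ≤ 1 + 3 * L := by exact_mod_cast hq3
  have hq4' : (1 : ℝ) ≤ q := by exact_mod_cast hq4
  have hq2' : (n : ℝ) * q ≤ n + 3 * L := by exact_mod_cast hq2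
  have hnK' : (n : ℝ) ≤ K := by exact_mod_cast hnK
  refine ⟨n * q, L + n * q, ε * (q * (7 / K)), by omega, ?_, ?_, ?_, ?_⟩
  · have : ε * (q * (7 / K)) = q * (7 * ε / K) := by ring
    rw [this]
    exact le_mul_of_one_le_left (by positivity) hq4'
  · have h1 : ε * (q * (7 / K)) = q * (7 * ε / K) := by ring
    have h2 : 28 * ε * L / K = (4 * L) * (7 * ε / K) := by ring
    rw [h1, h2]
    gcongr; linarith
  · have h1 : ε * (q * (7 / K)) * ((L + n * q : ℕ) : ℝ) = (7 * ε / K) * (q * (L + n * q)) := by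
      push_cast; ring
    have h2 : 7 * ε * (1 + 19 * L ^ 2 / K) = (7 * ε / K) * (K + 19 * L ^ 2) := by field_simp
    rw [h1, h2]
    gcongr
    have h3 : (q : ℝ) * (L + n * q) ≤ q * (4 * L + n) :=
      mul_le_mul_of_nonneg_left (by linarith) (by positivity)
    have h4 : (q : ℝ) * (4 * L) ≤ (1 + 3 * L) * (4 * L) := by gcongr
    nlinarith
  · refine { hst with cost := fun A hA => (hst.cost A hA).trans ?_ }
    have : ((n * q : ℕ) : ℝ) ≤ K + 3 * L := by push_cast; linarith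
    gcongr

end Crest.Agent.R104
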